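import Vale.Agent.P146.R2.H749.FamDef
import Vale.Agent.P146.R2.H432.Err

/-!
# P146: the bounds of the norms of the families of coefficients
-/

open MeasureTheory ProbabilityTheory

namespace Vale.Agent.P146.R2.H757

open Vale.Agent.P146 Vale.Agent.P146.H605 Vale.Agent.P146.H605.Gauge Vale.Agent.P146.Ub.Cv
  Vale.Agent.P146.H453 Vale.Agent.P146.R2.H749 Vale.Agent.P146.R2.H432

variable {n : ℕ} (β : ℝ)

lemma avf_dom (j u : Fin n) : Dom (avf n β (fun σ => sp σ u * sp σ j)) := gav_dom _ _ _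

lemma g3_dom (j : Fin n) (e₁ e₂ e₃ : Pair n) (u : Fin n) :
    Dom (fun g : Pair n → ℝ => g3 β j e₁ e₂ e₃ u g) :=
  (rav_dom β _).const_mul _

lemma mf_dom {M : (Pair n → ℝ) → Matrix (Fin n) (Fin n) ℝ} (hM : ∀ i j, Dom fun g => M g i j)
    (j v : Fin n) : Dom (mf β M j v) :=
  Dom.sum _ fun u _ => (hM v u).mul (avf_dom β j u)

lemma mh_dom {M : (Pair n → ℝ) → Matrix (Fin n) (Fin n) ℝ} (hM : ∀ i j, Dom fun g => M g i j)
    (j : Fin n) (e₁ e₂ e₃ : Pair n) (i : Fin n) : Dom (mh β M j e₁ e₂ e₃ i) :=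
  Dom.sum _ fun u _ => (hM i u).mul (g3_dom β j e₁ e₂ e₃ u)

lemma cheb_dom (k : ℕ) (i j : Fin n) : Dom fun g : Pair n → ℝ => cheb k (WW g) i j :=
  dom_cheb k i j

lemma cheb_good {q : ℝ} (hq : 1 ≤ q) (k : ℕ) : ∀ g, g ∉ BadQ n q → ∀ σ : Cfg n,
    ∑ v, ((fun g : Pair n → ℝ => cheb k (WW g)) g).mulVec (sp σ) v ^ 2 ≤
      (((k : ℝ) + 1) * q ^ k) ^ 2 * n := by
  intro g hg σ
  have h := cheb_off hq hg k (sp σ)
  rwa [sum_sp_sq] at h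

lemma errB_eq (q : ℝ) (k : ℕ) :
    errB (fun g : Pair n → ℝ => cheb k (WW g)) (BadQ n q) = 2 * errQ n q k := by
  unfold errB errQ F2
  rw [mul_assoc]

section bounds

variable (hn : 1 ≤ n) {q : ℝ} (hq : 1 ≤ q) {t : ℝ} (h0 : 0 ≤ t) (h1 : t ≤ 1) (L k : ℕ)
  {Er : ℝ} (hEr : (1 + 2304 * β ^ 6) * (n : ℝ) ^ 2 * (2 * errQ n q k) ≤ Er)

include hn hq h0 h1 hEr

lemma h1form : (n : ℝ)⁻¹ * ∑ j : Fin n, nv t L (CC β j k) j ≤ (((k : ℝ) + 1) * q ^ k) ^ 2 + Er := by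
  have hn0 : (0 : ℝ) < n := by exact_mod_cast hn
  have hn1 : (1 : ℝ) ≤ n := by exact_mod_cast hn
  have he := errQ_nonneg n q k
  have hC : 0 ≤ ((k : ℝ) + 1) * q ^ k := by positivity
  have h := F1form β (fun g => cheb k (WW g)) hn (cheb_dom k) hC (measurable_BadQ n q)
    (cheb_good hq k) h0 h1
  rw [errB_eq] at h
  have h2 : ∑ j : Fin n, nv t L (CC β j k) j ≤ n * ((((k : ℝ) + 1) * q ^ k) ^ 2 + 2 * errQ n q k) := by
    refine le_trans (Finset.sum_le_sum fun j _ => ?_) h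
    exact nv_le (mf_dom β (cheb_dom k) j j) h0 h1 L
  rw [inv_mul_le_iff₀ hn0]
  refine h2.trans (mul_le_mul_of_nonneg_left ?_ hn0.le)
  have h3 : 2 * errQ n q k ≤ (1 + 2304 * β ^ 6) * (n : ℝ) ^ 2 * (2 * errQ n q k) := by
    have h4 : (1 : ℝ) ≤ (1 + 2304 * β ^ 6) * (n : ℝ) ^ 2 := by
      have h5 : (1 : ℝ) ≤ 1 + 2304 * β ^ 6 := by nlinarith [sq_nonneg (β ^ 3)]
      have h6 : (1 : ℝ) ≤ (n : ℝ) ^ 2 := one_le_pow₀ hn1
      nlinarith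
    nlinarith
  linarith

lemma h2form : (n : ℝ)⁻¹ * ∑ j : Fin n, ns t L (CC β j k) ≤
    n * (((k : ℝ) + 1) * q ^ k) ^ 2 * crossMom n β 1 t + Er := by
  have hn0 : (0 : ℝ) < n := by exact_mod_cast hn
  have hn1 : (1 : ℝ) ≤ n := by exact_mod_cast hn
  have he := errQ_nonneg n q k
  have hC : 0 ≤ ((k : ℝ) + 1) * q ^ k := by positivity
  have h := F2form β (fun g => cheb k (WW g)) hn (cheb_dom k) hC (measurable_BadQ n q)
    (cheb_good hq k) h0 h1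
  rw [errB_eq] at h
  have h2 : ∑ j : Fin n, ns t L (CC β j k) ≤
      (n : ℝ) ^ 2 * ((((k : ℝ) + 1) * q ^ k) ^ 2 * crossMom n β 1 t + 2 * errQ n q k) := by
    refine le_trans (Finset.sum_le_sum fun j _ => ?_) h
    exact ns_le (fun v => mf_dom β (cheb_dom k) j v) h0 h1 L
  rw [inv_mul_le_iff₀ hn0]
  have h3 : (n : ℝ) * (2 * errQ n q k) ≤
      (1 + 2304 * β ^ 6) * (n : ℝ) ^ 2 * (2 * errQ n q k) := by
    have h5 : (1 : ℝ) ≤ 1 + 2304 * β ^ 6 := by nlinarith [sq_nonneg (β ^ 3)]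
    have h4 : (n : ℝ) ≤ (1 + 2304 * β ^ 6) * (n : ℝ) ^ 2 := by
      nlinarith [mul_nonneg hn0.le hn0.le]
    exact mul_le_mul_of_nonneg_right h4 (by linarith)
  refine h2.trans ?_
  have e1 : (n : ℝ) ^ 2 * ((((k : ℝ) + 1) * q ^ k) ^ 2 * crossMom n β 1 t + 2 * errQ n q k) =
      n * (n * (((k : ℝ) + 1) * q ^ k) ^ 2 * crossMom n β 1 t + n * (2 * errQ n q k)) := by
    ring
  rw [e1]
  exact mul_le_mul_of_nonneg_left (by linarith) hn0.le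

lemma h3form : (n : ℝ)⁻¹ * ∑ j : Fin n, ∑ v, ∑ e₁ ∈ st v, ∑ e₂ ∈ st v, ∑ e₃ ∈ st v,
      nv t L (GG β j v e₁ e₂ e₃ k) v ≤
    (2304 * β ^ 6) * ((((k : ℝ) + 1) * q ^ k) ^ 2 * (n * crossMom n β 4 t)) + Er := by
  have hn0 : (0 : ℝ) < n := by exact_mod_cast hn
  have hn1 : (1 : ℝ) ≤ n := by exact_mod_cast hn
  have he := errQ_nonneg n q k
  have hb : (0 : ℝ) ≤ 2304 * β ^ 6 := by nlinarith [sq_nonneg (β ^ 3)]
  have hC : 0 ≤ ((k : ℝ) + 1) * q ^ k := by positivity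
  have h := F3form β (fun g => cheb k (WW g)) hn (cheb_dom k) hC (measurable_BadQ n q)
    (cheb_good hq k) h0 h1
  rw [errB_eq] at h
  have h2 : ∑ j : Fin n, ∑ v, ∑ e₁ ∈ st v, ∑ e₂ ∈ st v, ∑ e₃ ∈ st v,
      nv t L (GG β j v e₁ e₂ e₃ k) v ≤ 2304 * β ^ 6 * (n : ℝ) ^ 2 *
        ((((k : ℝ) + 1) * q ^ k) ^ 2 * crossMom n β 4 t + 2 * errQ n q k) := by
    refine le_trans ?_ h
    refine Finset.sum_le_sum fun j _ => Finset.sum_le_sum fun v _ =>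
      Finset.sum_le_sum fun e₁ _ => Finset.sum_le_sum fun e₂ _ =>
      Finset.sum_le_sum fun e₃ _ => ?_
    exact nv_le (mh_dom β (cheb_dom k) j e₁ e₂ e₃ v) h0 h1 L
  rw [inv_mul_le_iff₀ hn0]
  have h3 : 2304 * β ^ 6 * (n : ℝ) * (2 * errQ n q k) ≤
      (1 + 2304 * β ^ 6) * (n : ℝ) ^ 2 * (2 * errQ n q k) := by
    have h4 : 2304 * β ^ 6 * (n : ℝ) ≤ (1 + 2304 * β ^ 6) * (n : ℝ) ^ 2 := by
      have h5 : (n : ℝ) ≤ (n : ℝ) ^ 2 := by nlinarith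
      have h6 := mul_le_mul_of_nonneg_left h5 hb
      nlinarith [sq_nonneg (n : ℝ)]
    exact mul_le_mul_of_nonneg_right h4 (by linarith)
  refine h2.trans ?_
  have e1 : 2304 * β ^ 6 * (n : ℝ) ^ 2 *
        ((((k : ℝ) + 1) * q ^ k) ^ 2 * crossMom n β 4 t + 2 * errQ n q k) =
      n * ((2304 * β ^ 6) * ((((k : ℝ) + 1) * q ^ k) ^ 2 * (n * crossMom n β 4 t)) +
        2304 * β ^ 6 * (n : ℝ) * (2 * errQ n q k)) := by
    ring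
  rw [e1]
  exact mul_le_mul_of_nonneg_left (by linarith) hn0.le

lemma h4form : (n : ℝ)⁻¹ * ∑ j : Fin n, ∑ v, ∑ e₁ ∈ st v, ∑ e₂ ∈ st v, ∑ e₃ ∈ st v,
      ns t L (GG β j v e₁ e₂ e₃ k) ≤
    (2304 * β ^ 6) * (n * (((k : ℝ) + 1) * q ^ k) ^ 2 * (n * crossMom n β 4 t)) + Er := by
  have hn0 : (0 : ℝ) < n := by exact_mod_cast hn
  have hn1 : (1 : ℝ) ≤ n := by exact_mod_cast hn
  have he := errQ_nonneg n q k
  have hb : (0 : ℝ) ≤ 2304 * β ^ 6 := by nlinarith [sq_nonneg (β ^ 3)]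
  have hC : 0 ≤ ((k : ℝ) + 1) * q ^ k := by positivity
  have h := F4form β (fun g => cheb k (WW g)) hn (cheb_dom k) hC (measurable_BadQ n q)
    (cheb_good hq k) h0 h1
  rw [errB_eq] at h
  have h2 : ∑ j : Fin n, ∑ v, ∑ e₁ ∈ st v, ∑ e₂ ∈ st v, ∑ e₃ ∈ st v,
      ns t L (GG β j v e₁ e₂ e₃ k) ≤ 2304 * β ^ 6 * (n : ℝ) ^ 3 *
        ((((k : ℝ) + 1) * q ^ k) ^ 2 * crossMom n β 4 t + 2 * errQ n q k) := by
    refine le_trans ?_ h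
    refine Finset.sum_le_sum fun j _ => Finset.sum_le_sum fun v _ =>
      Finset.sum_le_sum fun e₁ _ => Finset.sum_le_sum fun e₂ _ =>
      Finset.sum_le_sum fun e₃ _ => ?_
    exact ns_le (fun i => mh_dom β (cheb_dom k) j e₁ e₂ e₃ i) h0 h1 L
  rw [inv_mul_le_iff₀ hn0]
  have h3 : 2304 * β ^ 6 * (n : ℝ) ^ 2 * (2 * errQ n q k) ≤
      (1 + 2304 * β ^ 6) * (n : ℝ) ^ 2 * (2 * errQ n q k) := by
    have h4 : 2304 * β ^ 6 * (n : ℝ) ^ 2 ≤ (1 + 2304 * β ^ 6) * (n : ℝ) ^ 2 := by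
      nlinarith [sq_nonneg (n : ℝ)]
    exact mul_le_mul_of_nonneg_right h4 (by linarith)
  refine h2.trans ?_
  have e1 : 2304 * β ^ 6 * (n : ℝ) ^ 3 *
        ((((k : ℝ) + 1) * q ^ k) ^ 2 * crossMom n β 4 t + 2 * errQ n q k) =
      n * ((2304 * β ^ 6) * (n * (((k : ℝ) + 1) * q ^ k) ^ 2 * (n * crossMom n β 4 t)) +
        2304 * β ^ 6 * (n : ℝ) ^ 2 * (2 * errQ n q k)) := by
    ring
  rw [e1]
  exact mul_le_mul_of_nonneg_left (by linarith) hn0.le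

end bounds

end Vale.Agent.P146.R2.H757
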