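import Vale.Agent.P146.R2.H757.RepA

/-!
# P146: derivatives of replica averages in the disorder
-/

open MeasureTheory ProbabilityTheory

namespace Vale.Agent.P146.R2.H757

open Vale.Agent.P146 Vale.Agent.P146.H605 Vale.Agent.P146.H605.Gauge

variable {n Q : ℕ} (β : ℝ)

lemma gibbs_wt (g : Pair n → ℝ) (σ : Cfg n) :
    gibbs n β g σ = wt (ska n β) (fun _ => 0) g σ / zz (ska n β) (fun _ => 0) g := by
  unfold gibbs
  rw [← partitionFn_eq]
  unfold wt
  rw [ska_sum, add_zero]

lemma avf_gibbs (f : Cfg n → ℝ) (g : Pair n → ℝ) :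
    avf n β f g = ∑ σ, gibbs n β g σ * f σ := by
  unfold avf gav
  simp_rw [gibbs_wt]
  rw [Finset.sum_div]
  exact Finset.sum_congr rfl fun σ _ => by ring

lemma hasDerivAt_gibbs (g : Pair n → ℝ) (p : Pair n) (σ : Cfg n) (t : ℝ) :
    HasDerivAt (fun t => gibbs n β (Function.update g p t) σ)
      (gibbs n β (Function.update g p t) σ * ((β / Real.sqrt n) *
        (chi (ps p) σ - av n β (ps p) (Function.update g p t)))) t := by
  have e : (fun t => gibbs n β (Function.update g p t) σ) = fun t =>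
      wt (ska n β) (fun _ => 0) (Function.update g p t) σ /
        zz (ska n β) (fun _ => 0) (Function.update g p t) := funext fun t => gibbs_wt β _ σ
  rw [e]
  have h := (hasDerivAt_wt (ska n β) (fun _ => 0) g p σ t).fun_div
    (hasDerivAt_zz (ska n β) (fun _ => 0) g p t) (zz_pos _ _ (Function.update g p t)).ne'
  refine h.congr_deriv ?_
  have hz := (zz_pos (ska n β) (fun _ => 0) (Function.update g p t)).ne'
  rw [gibbs_wt]
  have h2 : ∑ s, ska n β s p * wt (ska n β) (fun _ => 0) (Function.update g p t) s =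
      (β / Real.sqrt n) * (av n β (ps p) (Function.update g p t) *
        zz (ska n β) (fun _ => 0) (Function.update g p t)) := by
    unfold av avf gav
    rw [div_mul_cancel₀ _ hz, Finset.mul_sum]
    refine Finset.sum_congr rfl fun s _ => ?_
    unfold ska
    ring
  rw [h2]
  have h3 : ska n β σ p = (β / Real.sqrt n) * chi (ps p) σ := rfl
  rw [h3]
  field_simp

lemma hasDerivAt_prod {κ : Type*} [DecidableEq κ] (S : Finset κ) {F : κ → ℝ → ℝ} {c : κ → ℝ}
    {t : ℝ} (h : ∀ l ∈ S, HasDerivAt (F l) (F l t * c l) t) :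
    HasDerivAt (fun t => ∏ l ∈ S, F l t) ((∏ l ∈ S, F l t) * ∑ l ∈ S, c l) t := by
  induction S using Finset.induction_on with
  | empty => simpa using hasDerivAt_const t (1 : ℝ)
  | insert a S ha ih =>
    simp only [Finset.prod_insert ha, Finset.sum_insert ha]
    refine ((h a (Finset.mem_insert_self a S)).mul
      (ih fun l hl => h l (Finset.mem_insert_of_mem hl))).congr_deriv ?_
    ring

lemma hasDerivAt_rwt (g : Pair n → ℝ) (p : Pair n) (s : Fin Q → Cfg n) (t : ℝ) :
    HasDerivAt (fun t => rwt β (Function.update g p t) s)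
      (rwt β (Function.update g p t) s * ((β / Real.sqrt n) *
        (∑ l, chi (ps p) (s l) - Q * av n β (ps p) (Function.update g p t)))) t := by
  have h := hasDerivAt_prod (Finset.univ : Finset (Fin Q))
    (F := fun l t => gibbs n β (Function.update g p t) (s l))
    (c := fun l => (β / Real.sqrt n) *
        (chi (ps p) (s l) - av n β (ps p) (Function.update g p t)))
    (t := t) (fun l _ => hasDerivAt_gibbs β g p (s l) t)
  refine h.congr_deriv ?_
  unfold rwt
  rw [← Finset.mul_sum, Finset.sum_sub_distrib]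
  simp

/-- the average over `Q` replicas -/
noncomputable def rav (f : (Fin Q → Cfg n) → ℝ) (g : Pair n → ℝ) : ℝ :=
  ∑ s : Fin Q → Cfg n, rwt β g s * f s

lemma hasDerivAt_rav (f : (Fin Q → Cfg n) → ℝ) (g : Pair n → ℝ) (p : Pair n) (t : ℝ) :
    HasDerivAt (fun t => rav β f (Function.update g p t))
      ((β / Real.sqrt n) * (∑ l, rav β (fun s => f s * chi (ps p) (s l)) (Function.update g p t)
        - Q * (av n β (ps p) (Function.update g p t) *
          rav β f (Function.update g p t)))) t := by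
  have h : HasDerivAt (fun t => ∑ s : Fin Q → Cfg n, rwt β (Function.update g p t) s * f s)
      (∑ s : Fin Q → Cfg n, (rwt β (Function.update g p t) s * ((β / Real.sqrt n) *
        (∑ l, chi (ps p) (s l) - Q * av n β (ps p) (Function.update g p t)))) * f s) t :=
    HasDerivAt.fun_sum fun s _ => (hasDerivAt_rwt β g p s t).mul_const (f s)
  refine h.congr_deriv ?_
  unfold rav
  rw [Finset.sum_comm, mul_sub, Finset.mul_sum, Finset.mul_sum, Finset.mul_sum, Finset.mul_sum,
    ← Finset.sum_sub_distrib]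
  refine Finset.sum_congr rfl fun s _ => ?_
  have h2 : ∑ l, rwt β (Function.update g p t) s * (f s * chi (ps p) (s l)) =
      rwt β (Function.update g p t) s * (f s * ∑ l, chi (ps p) (s l)) := by
    rw [Finset.mul_sum, Finset.mul_sum]
  rw [h2]
  ring

/-- resampling one replica -/
lemma rav_resample (l : Fin Q) (f : (Fin Q → Cfg n) → ℝ) (g : Pair n → ℝ) :
    rav β f g = ∑ s : Fin Q → Cfg n, rwt β g s *
      ∑ σ, gibbs n β g σ * f (Function.update s l σ) := by
  have h1 : rav β f g = ∑ x : (Fin Q → Cfg n) × Cfg n,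
      rwt β g x.1 * gibbs n β g x.2 * f x.1 := by
    rw [Fintype.sum_prod_type]
    unfold rav
    refine Finset.sum_congr rfl fun s _ => ?_
    have : ∀ σ, rwt β g s * gibbs n β g σ * f s = (rwt β g s * f s) * gibbs n β g σ :=
      fun σ => by ring
    simp only [this]
    rw [← Finset.mul_sum, sum_gibbs, mul_one]
  have h2 : ∑ s : Fin Q → Cfg n, rwt β g s *
      ∑ σ, gibbs n β g σ * f (Function.update s l σ) = ∑ x : (Fin Q → Cfg n) × Cfg n,
      rwt β g x.1 * gibbs n β g x.2 * f (Function.update x.1 l x.2) := by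
    rw [Fintype.sum_prod_type]
    refine Finset.sum_congr rfl fun s _ => ?_
    rw [Finset.mul_sum]
    exact Finset.sum_congr rfl fun σ _ => by ring
  rw [h1, h2]
  have inv : Function.Involutive (fun x : (Fin Q → Cfg n) × Cfg n =>
      (Function.update x.1 l x.2, x.1 l)) := by
    intro x
    ext1
    · simp
    · simp
  refine Fintype.sum_equiv (inv.toPerm _) _ _ fun x => ?_
  have h3 : inv.toPerm _ x = (Function.update x.1 l x.2, x.1 l) := rfl
  rw [h3]
  simp only [Function.update_idem, Function.update_eq_self]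
  congr 1
  unfold rwt
  rw [← Finset.mul_prod_erase Finset.univ _ (Finset.mem_univ l),
    ← Finset.mul_prod_erase Finset.univ (fun m => gibbs n β g (Function.update x.1 l x.2 m))
      (Finset.mem_univ l)]
  have h4 : ∏ m ∈ Finset.univ.erase l, gibbs n β g (Function.update x.1 l x.2 m) =
      ∏ m ∈ Finset.univ.erase l, gibbs n β g (x.1 m) := by
    refine Finset.prod_congr rfl fun m hm => ?_
    rw [Function.update_of_ne (Finset.ne_of_mem_erase hm)]
  rw [h4, Function.update_self]
  ring

lemma rav_indep (l : Fin Q) {f : (Fin Q → Cfg n) → ℝ}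
    (hf : ∀ s σ, f (Function.update s l σ) = f s) (φ : Cfg n → ℝ) (g : Pair n → ℝ) :
    rav β (fun s => f s * φ (s l)) g = rav β f g * avf n β φ g := by
  rw [rav_resample β l]
  simp only [hf, Function.update_self]
  rw [avf_gibbs]
  unfold rav
  rw [Finset.sum_mul]
  refine Finset.sum_congr rfl fun s _ => ?_
  rw [mul_assoc]
  congr 1
  rw [Finset.mul_sum]
  exact Finset.sum_congr rfl fun σ _ => by ring

/-- the coefficients of the new replica in a derivative -/
noncomputable def cc (r l : Fin 4) : ℝ := if l < r then 1 else if l = r then -((r : ℕ) : ℝ) else 0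

/-- the derivative of the observable in the direction `p`, for observables of the first
`r` replicas -/
noncomputable def dd (r : Fin 4) (p : Pair n) (f : (Fin 4 → Cfg n) → ℝ) : (Fin 4 → Cfg n) → ℝ :=
  fun s => f s * ∑ l, cc r l * chi (ps p) (s l)

lemma hasDerivAt_rav_dd {r : Fin 4} {f : (Fin 4 → Cfg n) → ℝ}
    (hf : ∀ l : Fin 4, r ≤ l → ∀ s σ, f (Function.update s l σ) = f s)
    (g : Pair n → ℝ) (p : Pair n) (t : ℝ) :
    HasDerivAt (fun t => rav β f (Function.update g p t))
      ((β / Real.sqrt n) * rav β (dd r p f) (Function.update g p t)) t := by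
  refine (hasDerivAt_rav β f g p t).congr_deriv ?_
  congr 1
  generalize Function.update g p t = g'
  have h1 : rav β (dd r p f) g' = ∑ l, cc r l * rav β (fun s => f s * chi (ps p) (s l)) g' := by
    unfold rav dd
    simp_rw [Finset.mul_sum]
    rw [Finset.sum_comm]
    exact Finset.sum_congr rfl fun l _ => Finset.sum_congr rfl fun s _ => by ring
  have h2 : ∀ l : Fin 4, r ≤ l → rav β (fun s => f s * chi (ps p) (s l)) g' =
      rav β f g' * av n β (ps p) g' := fun l hl => rav_indep β l (hf l hl) _ g'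
  rw [h1]
  simp only [Fin.sum_univ_four, cc]
  fin_cases r
  · rw [h2 0 (by decide), h2 1 (by decide), h2 2 (by decide), h2 3 (by decide)]
    simp
    ring
  · have := h2 1 (by decide)
    rw [h2 1 (by decide), h2 2 (by decide), h2 3 (by decide)]
    simp
    ring
  · rw [h2 2 (by decide), h2 3 (by decide)]
    simp
    ring
  · rw [h2 3 (by decide)]
    simp
    ring

lemma dd_indep {r : Fin 4} {f : (Fin 4 → Cfg n) → ℝ} (p : Pair n) {l : Fin 4}
    (hf : ∀ s σ, f (Function.update s l σ) = f s) (hl : r < l) (s : Fin 4 → Cfg n) (σ : Cfg n) :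
    dd r p f (Function.update s l σ) = dd r p f s := by
  unfold dd
  rw [hf]
  congr 1
  refine Finset.sum_congr rfl fun m _ => ?_
  by_cases h : m = l
  · subst h
    have : cc r m = 0 := by
      unfold cc
      rw [if_neg (not_lt.2 hl.le), if_neg hl.ne']
    rw [this]
    ring
  · rw [Function.update_of_ne h]

/-- `σ_u σ_j` in the first replica -/
noncomputable def ob (j u : Fin n) : (Fin 4 → Cfg n) → ℝ := fun s => sp (s 0) u * sp (s 0) j

lemma ob_indep (j u : Fin n) {l : Fin 4} (hl : 1 ≤ l) (s : Fin 4 → Cfg n) (σ : Cfg n) :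
    ob j u (Function.update s l σ) = ob j u s := by
  unfold ob
  rw [Function.update_of_ne (by intro h; rw [← h] at hl; exact absurd hl (by decide))]

lemma rav_ob (j u : Fin n) (g : Pair n → ℝ) :
    rav β (ob j u) g = avf n β (fun σ => sp σ u * sp σ j) g := by
  rw [avf_gibbs]
  exact rwt_marg β g 0 (fun σ => sp σ u * sp σ j)

/-- first derivative of `⟨σ_u σ_j⟩` -/
noncomputable def g1 (j : Fin n) (e₁ : Pair n) (u : Fin n) (g : Pair n → ℝ) : ℝ :=
  (β / Real.sqrt n) * rav β (dd 1 e₁ (ob j u)) g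

/-- second derivative of `⟨σ_u σ_j⟩` -/
noncomputable def g2 (j : Fin n) (e₁ e₂ : Pair n) (u : Fin n) (g : Pair n → ℝ) : ℝ :=
  (β / Real.sqrt n) ^ 2 * rav β (dd 2 e₂ (dd 1 e₁ (ob j u))) g

/-- third derivative of `⟨σ_u σ_j⟩` -/
noncomputable def g3 (j : Fin n) (e₁ e₂ e₃ : Pair n) (u : Fin n) (g : Pair n → ℝ) : ℝ :=
  (β / Real.sqrt n) ^ 3 * rav β (dd 3 e₃ (dd 2 e₂ (dd 1 e₁ (ob j u)))) g

lemma deriv_g1 (j u : Fin n) (e₁ : Pair n) (g : Pair n → ℝ) (t : ℝ) :
    HasDerivAt (fun t => avf n β (fun σ => sp σ u * sp σ j) (Function.update g e₁ t))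
      (g1 β j e₁ u (Function.update g e₁ t)) t := by
  have h := hasDerivAt_rav_dd β (r := 1) (f := ob j u) (fun l hl => ob_indep j u hl) g e₁ t
  simp_rw [rav_ob] at h
  exact h

lemma deriv_g2 (j u : Fin n) (e₁ e₂ : Pair n) (g : Pair n → ℝ) (t : ℝ) :
    HasDerivAt (fun t => g1 β j e₁ u (Function.update g e₂ t))
      (g2 β j e₁ e₂ u (Function.update g e₂ t)) t := by
  have h := hasDerivAt_rav_dd β (r := 2) (f := dd 1 e₁ (ob j u)) (fun l hl =>
    dd_indep e₁ (ob_indep j u (le_trans (by decide) hl)) (lt_of_lt_of_le (by decide) hl)) g e₂ t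
  refine (h.const_mul (β / Real.sqrt n)).congr_deriv ?_
  unfold g2
  ring

lemma deriv_g3 (j u : Fin n) (e₁ e₂ e₃ : Pair n) (g : Pair n → ℝ) (t : ℝ) :
    HasDerivAt (fun t => g2 β j e₁ e₂ u (Function.update g e₃ t))
      (g3 β j e₁ e₂ e₃ u (Function.update g e₃ t)) t := by
  have h := hasDerivAt_rav_dd β (r := 3) (f := dd 2 e₂ (dd 1 e₁ (ob j u))) (fun l hl =>
    dd_indep e₂ (dd_indep e₁ (ob_indep j u (le_trans (by decide) hl))
      (lt_of_lt_of_le (by decide) hl)) (lt_of_lt_of_le (by decide) hl)) g e₃ t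
  refine (h.const_mul ((β / Real.sqrt n) ^ 2)).congr_deriv ?_
  unfold g3
  ring

end Vale.Agent.P146.R2.H757
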