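import Vale.Agent.P146.R2.H757.RepA
import Vale.Agent.P146.H605.Conv

/-!
# P146: noise stability of replica averages with a matrix factor
-/

open MeasureTheory ProbabilityTheory

namespace Vale.Agent.P146.R2.H757

open Vale.Agent.P146 Vale.Agent.P146.H605 Vale.Agent.P146.H605.Gauge Vale.Agent.P146.Ub.Cv

variable {n Q K : ℕ} (β : ℝ)

/-- the mean of `|R|^K` for two disorders of correlation `t` -/
noncomputable def crossMom (n : ℕ) (β : ℝ) (K : ℕ) (t : ℝ) : ℝ :=
  ∫ z, ∫ g, ∫ g', ∑ σ : Fin n → ℤˣ, ∑ τ : Fin n → ℤˣ,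
    |overlap n σ τ| ^ K * gibbs n β (mixed n t z g) σ * gibbs n β (mixed n t z g') τ
      ∂(disorder n) ∂(disorder n) ∂(disorder n)

lemma crossMom_two (n : ℕ) (β t : ℝ) : crossMom n β 2 t = crossOverlap n β t := by
  unfold crossMom crossOverlap
  simp_rw [sq_abs]

lemma gibbs_dom (σ : Cfg n) : Dom (fun g : Pair n → ℝ => gibbs n β g σ) :=
  Dom.of_bounded (continuous_gibbs β σ) 1 fun g => by
    rw [abs_of_nonneg (gibbs_nonneg β g σ)]
    exact gibbs_le_one β g σ

lemma rwt_dom (s : Fin Q → Cfg n) : Dom (fun g : Pair n → ℝ => rwt β g s) :=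
  Dom.prod _ fun l _ => gibbs_dom β (s l)

lemma rav_dom (f : (Fin Q → Cfg n) → ℝ) :
    Dom (fun g : Pair n → ℝ => ∑ s : Fin Q → Cfg n, rwt β g s * f s) :=
  Dom.sum _ fun s _ => (rwt_dom β s).mul (Dom.const _)

section fubini

variable {ι : Type*} [Fintype ι]

lemma int_comp {α γ : Type*} [MeasurableSpace α] [MeasurableSpace γ] {μ : Measure α}
    {ν : Measure γ} {φ : α → γ} (hm : MeasurePreserving φ μ ν) {f : γ → ℝ}
    (hf : AEStronglyMeasurable f ν) : ∫ q, f (φ q) ∂μ = ∫ x, f x ∂ν := by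
  have h := integral_map (μ := μ) hm.measurable.aemeasurable (f := f)
    (by rw [hm.map_eq]; exact hf)
  rw [hm.map_eq] at h
  exact h.symm

/-- the first copy -/
lemma mp_one {t : ℝ} (h0 : 0 ≤ t) (h1 : t ≤ 1) :
    MeasurePreserving (fun q : (ι → ℝ) × ((ι → ℝ) × (ι → ℝ)) =>
      mix (Real.sqrt t) (Real.sqrt (1 - t)) q.1 q.2.1)
      ((gpi ι).prod ((gpi ι).prod (gpi ι))) (gpi ι) := by
  have h2 : MeasurePreserving (Prod.map id Prod.fst :
      (ι → ℝ) × ((ι → ℝ) × (ι → ℝ)) → (ι → ℝ) × (ι → ℝ))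
      ((gpi ι).prod ((gpi ι).prod (gpi ι))) ((gpi ι).prod (gpi ι)) :=
    (MeasurePreserving.id (gpi ι)).prod measurePreserving_fst
  exact (mp_mix (sqrt_sq_add h0 h1)).comp h2

/-- the second copy -/
lemma mp_two {t : ℝ} (h0 : 0 ≤ t) (h1 : t ≤ 1) :
    MeasurePreserving (fun q : (ι → ℝ) × ((ι → ℝ) × (ι → ℝ)) =>
      mix (Real.sqrt t) (Real.sqrt (1 - t)) q.1 q.2.2)
      ((gpi ι).prod ((gpi ι).prod (gpi ι))) (gpi ι) := by
  have h2 : MeasurePreserving (Prod.map id Prod.snd :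
      (ι → ℝ) × ((ι → ℝ) × (ι → ℝ)) → (ι → ℝ) × (ι → ℝ))
      ((gpi ι).prod ((gpi ι).prod (gpi ι))) ((gpi ι).prod (gpi ι)) :=
    (MeasurePreserving.id (gpi ι)).prod measurePreserving_snd
  exact (mp_mix (sqrt_sq_add h0 h1)).comp h2

end fubini

lemma cont_armom (K : ℕ) : Continuous fun p : (Pair n → ℝ) × (Pair n → ℝ) =>
    armom n β K p.1 p.2 := by
  unfold armom
  refine continuous_finsetSum _ fun σ _ => continuous_finsetSum _ fun τ _ => ?_
  exact (continuous_const.mul ((continuous_gibbs β σ).comp continuous_fst)).mul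
    ((continuous_gibbs β τ).comp continuous_snd)

lemma cont_q1 (t : ℝ) : Continuous fun q : (Pair n → ℝ) × ((Pair n → ℝ) × (Pair n → ℝ)) =>
    mix (Real.sqrt t) (Real.sqrt (1 - t)) q.1 q.2.1 :=
  cont_mix continuous_const continuous_const continuous_fst
    (continuous_fst.comp continuous_snd)

lemma cont_q2 (t : ℝ) : Continuous fun q : (Pair n → ℝ) × ((Pair n → ℝ) × (Pair n → ℝ)) =>
    mix (Real.sqrt t) (Real.sqrt (1 - t)) q.1 q.2.2 :=
  cont_mix continuous_const continuous_const continuous_fst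
    (continuous_snd.comp continuous_snd)

lemma int_armom (hn : 1 ≤ n) (K : ℕ) (t : ℝ) :
    Integrable (fun q : (Pair n → ℝ) × ((Pair n → ℝ) × (Pair n → ℝ)) =>
      armom n β K (mix (Real.sqrt t) (Real.sqrt (1 - t)) q.1 q.2.1)
        (mix (Real.sqrt t) (Real.sqrt (1 - t)) q.1 q.2.2))
      ((gpi (Pair n)).prod ((gpi (Pair n)).prod (gpi (Pair n)))) := by
  refine Integrable.mono' (integrable_const (1 : ℝ))
    ((cont_armom β K).comp ((cont_q1 t).prodMk (cont_q2 t))).aestronglyMeasurable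
    (Filter.Eventually.of_forall fun q => ?_)
  rw [Real.norm_eq_abs]
  show |armom n β K _ _| ≤ 1
  rw [abs_of_nonneg (armom_nonneg β K _ _)]
  exact armom_le_one β hn K _ _

lemma crossMom_eq (hn : 1 ≤ n) (K : ℕ) (t : ℝ) :
    crossMom n β K t = ∫ q : (Pair n → ℝ) × ((Pair n → ℝ) × (Pair n → ℝ)),
      armom n β K (mix (Real.sqrt t) (Real.sqrt (1 - t)) q.1 q.2.1)
        (mix (Real.sqrt t) (Real.sqrt (1 - t)) q.1 q.2.2)
      ∂((gpi (Pair n)).prod ((gpi (Pair n)).prod (gpi (Pair n)))) := by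
  rw [integral_prod _ (int_armom β hn K t)]
  unfold crossMom
  rw [disorder_eq]
  refine integral_congr_ae (Filter.Eventually.of_forall fun z => ?_)
  simp only
  have hi : Integrable (fun p : (Pair n → ℝ) × (Pair n → ℝ) =>
      armom n β K (mix (Real.sqrt t) (Real.sqrt (1 - t)) z p.1)
        (mix (Real.sqrt t) (Real.sqrt (1 - t)) z p.2)) ((gpi (Pair n)).prod (gpi (Pair n))) := by
    have c1 : Continuous fun p : (Pair n → ℝ) × (Pair n → ℝ) =>
        mix (Real.sqrt t) (Real.sqrt (1 - t)) z p.1 :=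
      cont_mix continuous_const continuous_const continuous_const continuous_fst
    have c2 : Continuous fun p : (Pair n → ℝ) × (Pair n → ℝ) =>
        mix (Real.sqrt t) (Real.sqrt (1 - t)) z p.2 :=
      cont_mix continuous_const continuous_const continuous_const continuous_snd
    refine Integrable.mono' (integrable_const (1 : ℝ))
      ((cont_armom β K).comp (c1.prodMk c2)).aestronglyMeasurable
      (Filter.Eventually.of_forall fun q => ?_)
    rw [Real.norm_eq_abs]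
    show |armom n β K _ _| ≤ 1
    rw [abs_of_nonneg (armom_nonneg β K _ _)]
    exact armom_le_one β hn K _ _
  rw [integral_prod _ hi]
  rfl

lemma crossMom_nonneg (K : ℕ) (t : ℝ) : 0 ≤ crossMom n β K t := by
  unfold crossMom
  refine integral_nonneg fun z => integral_nonneg fun g => integral_nonneg fun g' => ?_
  exact armom_nonneg β K _ _

section mat

variable (M : (Pair n → ℝ) → Matrix (Fin n) (Fin n) ℝ) (r0 : Fin Q) (r : Fin K → Fin Q)
  (e : Fin n → (Fin Q → Cfg n) → ℝ)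

/-- the squared Frobenius norm -/
noncomputable def F2 (g : Pair n → ℝ) : ℝ := ∑ i, ∑ j, M g i j ^ 2

lemma F2_nonneg (g : Pair n → ℝ) : 0 ≤ F2 M g :=
  Finset.sum_nonneg fun _ _ => Finset.sum_nonneg fun _ _ => sq_nonneg _

lemma F2_dom (hM : ∀ i j, Dom fun g => M g i j) : Dom (F2 M) :=
  Dom.sum _ fun i _ => Dom.sum _ fun j _ => (hM i j).pow 2

lemma mulVec_F2 (g : Pair n → ℝ) (σ : Cfg n) :
    ∑ v, (M g).mulVec (sp σ) v ^ 2 ≤ Real.sqrt (F2 M g) ^ 2 * n := by
  rw [Real.sq_sqrt (F2_nonneg M g)]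
  unfold F2
  rw [Finset.sum_mul]
  refine Finset.sum_le_sum fun v _ => ?_
  have h := Finset.sum_mul_sq_le_sq_mul_sq Finset.univ (fun j => M g v j) (fun j => sp σ j)
  rw [sum_sp_sq] at h
  exact h

lemma TT_dom (hM : ∀ i j, Dom fun g => M g i j) (v : Fin n) (a : Fin K → Fin n) :
    Dom (TT β M r0 r e v a) := by
  unfold TT
  refine Dom.sum _ fun s _ => (rwt_dom β s).mul (Dom.mul (Dom.mul ?_ (Dom.const _)) (Dom.const _))
  refine (Dom.sum Finset.univ fun j _ => (hM v j).mul (Dom.const (sp (s r0) j))).congr fun g => ?_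
  rfl

/-- pointwise bound with a good event -/
lemma pair_good (hn : 1 ≤ n) (he : ∀ v s, |e v s| ≤ 1) {C : ℝ} (hC : 0 ≤ C)
    {B : Set (Pair n → ℝ)}
    (hB : ∀ g, g ∉ B → ∀ σ : Cfg n, ∑ v, (M g).mulVec (sp σ) v ^ 2 ≤ C ^ 2 * n)
    {lam : ℝ} (hl : 0 < lam) (g g' : Pair n → ℝ) :
    ∑ v, ∑ a : Fin K → Fin n, TT β M r0 r e v a g * TT β M r0 r e v a g' ≤
      (n : ℝ) ^ (K + 1) * (C ^ 2 * armom n β K g g' +
        (lam / 2 * (B.indicator 1 g + B.indicator 1 g') +
          1 / (2 * lam) * (F2 M g ^ 2 + F2 M g' ^ 2))) := by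
  have hn0 : (0 : ℝ) < n := by exact_mod_cast hn
  have a0 := armom_nonneg β K g g'
  have a1 := armom_le_one β hn K g g'
  have f0 := F2_nonneg M g
  have f0' := F2_nonneg M g'
  have i0 : ∀ x : Pair n → ℝ, (0 : ℝ) ≤ B.indicator 1 x := fun x =>
    Set.indicator_nonneg (fun _ _ => zero_le_one) x
  by_cases h : g ∈ B ∨ g' ∈ B
  · have h1 := pair_bound β M r0 r e hn he g g' (Real.sqrt_nonneg _) (Real.sqrt_nonneg _)
      (mulVec_F2 M g) (mulVec_F2 M g')
    refine (le_abs_self _).trans (h1.trans ?_)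
    refine mul_le_mul_of_nonneg_left ?_ (by positivity)
    have h2 : Real.sqrt (F2 M g) * Real.sqrt (F2 M g') ≤ (F2 M g + F2 M g') / 2 := by
      have := sq_nonneg (Real.sqrt (F2 M g) - Real.sqrt (F2 M g'))
      have e1 := Real.sq_sqrt f0
      have e2 := Real.sq_sqrt f0'
      nlinarith
    have h3 : Real.sqrt (F2 M g) * Real.sqrt (F2 M g') * armom n β K g g' ≤
        (F2 M g + F2 M g') / 2 := by
      refine le_trans ?_ h2
      exact mul_le_of_le_one_right (by positivity) a1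
    have h4 : ∀ x : ℝ, x / 2 ≤ lam / 4 + 1 / (4 * lam) * x ^ 2 := by
      intro x
      have : 0 ≤ (x - lam) ^ 2 / (4 * lam) := by positivity
      have e3 : (x - lam) ^ 2 / (4 * lam) = lam / 4 + 1 / (4 * lam) * x ^ 2 - x / 2 := by
        field_simp
        ring
      linarith
    have h5 : (1 : ℝ) ≤ B.indicator 1 g + B.indicator 1 g' := by
      rcases h with h | h
      · have : B.indicator (1 : (Pair n → ℝ) → ℝ) g = 1 := by simp [h]
        have := i0 g'
        linarith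
      · have : B.indicator (1 : (Pair n → ℝ) → ℝ) g' = 1 := by simp [h]
        have := i0 g
        linarith
    have h6 := h4 (F2 M g)
    have h7 := h4 (F2 M g')
    have h8 : 0 ≤ C ^ 2 * armom n β K g g' := by positivity
    have h9 : 1 / (4 * lam) * F2 M g ^ 2 ≤ 1 / (2 * lam) * F2 M g ^ 2 := by
      refine mul_le_mul_of_nonneg_right ?_ (sq_nonneg _)
      exact one_div_le_one_div_of_le (by positivity) (by linarith)
    have h10 : 1 / (4 * lam) * F2 M g' ^ 2 ≤ 1 / (2 * lam) * F2 M g' ^ 2 := by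
      refine mul_le_mul_of_nonneg_right ?_ (sq_nonneg _)
      exact one_div_le_one_div_of_le (by positivity) (by linarith)
    have h11 : lam / 2 ≤ lam / 2 * (B.indicator 1 g + B.indicator 1 g') :=
      le_mul_of_one_le_right (by positivity) h5
    have e4 : 1 / (2 * lam) * (F2 M g ^ 2 + F2 M g' ^ 2) =
      1 / (2 * lam) * F2 M g ^ 2 + 1 / (2 * lam) * F2 M g' ^ 2 := by ring
    rw [e4]
    linarith
  · push Not at h
    have h1 := pair_bound β M r0 r e hn he g g' hC hC (hB g h.1) (hB g' h.2)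
    refine (le_abs_self _).trans (h1.trans ?_)
    refine mul_le_mul_of_nonneg_left ?_ (by positivity)
    have h2 : 0 ≤ lam / 2 * (B.indicator 1 g + B.indicator 1 g') :=
      mul_nonneg (by positivity) (add_nonneg (i0 g) (i0 g'))
    have h3 : 0 ≤ 1 / (2 * lam) * (F2 M g ^ 2 + F2 M g' ^ 2) := by positivity
    have h4 : C * C * armom n β K g g' = C ^ 2 * armom n β K g g' := by ring
    linarith

/-- **Noise stability of replica averages with a matrix factor.** -/
theorem lemG (hn : 1 ≤ n) (he : ∀ v s, |e v s| ≤ 1)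
    (hM : ∀ i j, Dom fun g => M g i j) {C : ℝ} (hC : 0 ≤ C)
    {B : Set (Pair n → ℝ)} (hBm : MeasurableSet B)
    (hB : ∀ g, g ∉ B → ∀ σ : Cfg n, ∑ v, (M g).mulVec (sp σ) v ^ 2 ≤ C ^ 2 * n)
    {lam : ℝ} (hl : 0 < lam) {t : ℝ} (h0 : 0 ≤ t) (h1 : t ≤ 1) :
    ∑ v, ∑ a : Fin K → Fin n, QQ (TT β M r0 r e v a) t ≤
      (n : ℝ) ^ (K + 1) * (C ^ 2 * crossMom n β K t +
        (lam * (gpi (Pair n)).real B + 1 / lam * ∫ g, F2 M g ^ 2 ∂(gpi (Pair n)))) := by
  have hT := TT_dom β M r0 r e hM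
  have e1 : ∑ v, ∑ a : Fin K → Fin n, QQ (TT β M r0 r e v a) t =
      ∫ q : (Pair n → ℝ) × ((Pair n → ℝ) × (Pair n → ℝ)),
        ∑ v, ∑ a : Fin K → Fin n,
        TT β M r0 r e v a (mix (Real.sqrt t) (Real.sqrt (1 - t)) q.1 q.2.1) *
        TT β M r0 r e v a (mix (Real.sqrt t) (Real.sqrt (1 - t)) q.1 q.2.2)
        ∂((gpi (Pair n)).prod ((gpi (Pair n)).prod (gpi (Pair n)))) := by
    rw [integral_finsetSum _ fun v _ => integrable_finsetSum _ fun a _ =>
      int_pair (hT v a) h0 h1]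
    refine Finset.sum_congr rfl fun v _ => ?_
    rw [integral_finsetSum _ fun a _ => int_pair (hT v a) h0 h1]
    exact Finset.sum_congr rfl fun a _ => QQ_prod (hT v a) h0 h1
  have iL : Integrable (fun q : (Pair n → ℝ) × ((Pair n → ℝ) × (Pair n → ℝ)) =>
        ∑ v, ∑ a : Fin K → Fin n,
        TT β M r0 r e v a (mix (Real.sqrt t) (Real.sqrt (1 - t)) q.1 q.2.1) *
        TT β M r0 r e v a (mix (Real.sqrt t) (Real.sqrt (1 - t)) q.1 q.2.2))
        ((gpi (Pair n)).prod ((gpi (Pair n)).prod (gpi (Pair n)))) :=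
    integrable_finsetSum _ fun v _ => integrable_finsetSum _ fun a _ =>
      int_pair (hT v a) h0 h1
  have m1 := mp_one (ι := Pair n) h0 h1
  have m2 := mp_two (ι := Pair n) h0 h1
  have iI : Integrable (fun g : Pair n → ℝ => B.indicator (1 : (Pair n → ℝ) → ℝ) g)
      (gpi (Pair n)) := (integrable_const (1 : ℝ)).indicator hBm
  have vI : ∫ g : Pair n → ℝ, B.indicator (1 : (Pair n → ℝ) → ℝ) g ∂(gpi (Pair n)) =
      (gpi (Pair n)).real B := integral_indicator_one hBm
  have dF : Dom (fun g => F2 M g ^ 2) := (F2_dom M hM).pow 2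
  have j1 := m1.integrable_comp_of_integrable iI
  have j2 := m2.integrable_comp_of_integrable iI
  have j3 := m1.integrable_comp_of_integrable dF.integrable
  have j4 := m2.integrable_comp_of_integrable dF.integrable
  have k1 := int_comp m1 iI.aestronglyMeasurable
  have k2 := int_comp m2 iI.aestronglyMeasurable
  have k3 := int_comp m1 dF.integrable.aestronglyMeasurable
  have k4 := int_comp m2 dF.integrable.aestronglyMeasurable
  rw [vI] at k1 k2
  rw [e1]
  have iR1 := (int_armom β hn K t).const_mul (C ^ 2)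
  have iR2 := (j1.add j2).const_mul (lam / 2)
  have iR3 := (j3.add j4).const_mul (1 / (2 * lam))
  refine (integral_mono iL ((iR1.add (iR2.add iR3)).const_mul ((n : ℝ) ^ (K + 1)))
    fun q => ?_).trans (le_of_eq ?_)
  · exact pair_good β M r0 r e hn he hC hB hl _ _
  · rw [integral_const_mul]
    congr 1
    rw [crossMom_eq β hn]
    have s1 := integral_add iR1 (iR2.add iR3)
    have s2 := integral_add iR2 iR3
    have s3 := integral_add j1 j2
    have s4 := integral_add j3 j4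
    have r1 := integral_const_mul (μ := (gpi (Pair n)).prod ((gpi (Pair n)).prod (gpi (Pair n))))
      (C ^ 2) (fun q : (Pair n → ℝ) × ((Pair n → ℝ) × (Pair n → ℝ)) =>
      armom n β K (mix (Real.sqrt t) (Real.sqrt (1 - t)) q.1 q.2.1)
        (mix (Real.sqrt t) (Real.sqrt (1 - t)) q.1 q.2.2))
    refine Eq.trans s1 ?_
    refine (congrArg₂ (· + ·) r1 (Eq.trans s2 ?_)).trans rfl
    refine congrArg₂ (· + ·) ((integral_const_mul (lam / 2) _).trans
      ((congrArg (fun x => lam / 2 * x) s3).trans ?_))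
      ((integral_const_mul (1 / (2 * lam)) _).trans
      ((congrArg (fun x => 1 / (2 * lam) * x) s4).trans ?_))
    · refine (congrArg (fun x => lam / 2 * x) (congrArg₂ (· + ·) k1 k2)).trans ?_
      show lam / 2 * ((gpi (Pair n)).real B + (gpi (Pair n)).real B) = _
      ring
    · refine (congrArg (fun x => 1 / (2 * lam) * x) (congrArg₂ (· + ·) k3 k4)).trans ?_
      show 1 / (2 * lam) * (∫ g, F2 M g ^ 2 ∂(gpi (Pair n)) + ∫ g, F2 M g ^ 2 ∂(gpi (Pair n))) = _
      field_simp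
      ring

/-- the same with the geometric mean of the error terms -/
theorem lemG' (hn : 1 ≤ n) (he : ∀ v s, |e v s| ≤ 1)
    (hM : ∀ i j, Dom fun g => M g i j) {C : ℝ} (hC : 0 ≤ C)
    {B : Set (Pair n → ℝ)} (hBm : MeasurableSet B)
    (hB : ∀ g, g ∉ B → ∀ σ : Cfg n, ∑ v, (M g).mulVec (sp σ) v ^ 2 ≤ C ^ 2 * n)
    {t : ℝ} (h0 : 0 ≤ t) (h1 : t ≤ 1) :
    ∑ v, ∑ a : Fin K → Fin n, QQ (TT β M r0 r e v a) t ≤
      (n : ℝ) ^ (K + 1) * (C ^ 2 * crossMom n β K t +
        2 * Real.sqrt ((gpi (Pair n)).real B) *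
          Real.sqrt (∫ g, F2 M g ^ 2 ∂(gpi (Pair n)))) := by
  have hn0 : (0 : ℝ) < n := by exact_mod_cast hn
  obtain ⟨P, hP⟩ : ∃ P, P = (gpi (Pair n)).real B := ⟨_, rfl⟩
  obtain ⟨E, hE⟩ : ∃ E, E = ∫ g, F2 M g ^ 2 ∂(gpi (Pair n)) := ⟨_, rfl⟩
  have P0 : 0 ≤ P := by rw [hP]; exact measureReal_nonneg
  have E0 : 0 ≤ E := by rw [hE]; exact integral_nonneg fun _ => sq_nonneg _
  obtain ⟨X, hX⟩ : ∃ X, X = ∑ v, ∑ a : Fin K → Fin n, QQ (TT β M r0 r e v a) t := ⟨_, rfl⟩
  obtain ⟨Y, hY⟩ : ∃ Y, Y = C ^ 2 * crossMom n β K t := ⟨_, rfl⟩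
  have key : ∀ lam : ℝ, 0 < lam → X ≤ (n : ℝ) ^ (K + 1) * (Y + (lam * P + 1 / lam * E)) := by
    intro lam hl
    rw [hX, hY, hP, hE]
    exact lemG β M r0 r e hn he hM hC hBm hB hl h0 h1
  rw [← hX, ← hY, ← hP, ← hE]
  have h2 : ∀ ε : ℝ, 0 < ε → X ≤ (n : ℝ) ^ (K + 1) *
      (Y + 2 * Real.sqrt (P + ε) * Real.sqrt (E + ε)) := by
    intro ε hε
    have p0 : 0 < Real.sqrt (P + ε) := Real.sqrt_pos.2 (by linarith)
    have e0 : 0 < Real.sqrt (E + ε) := Real.sqrt_pos.2 (by linarith)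
    have sp := Real.sq_sqrt (show 0 ≤ P + ε by linarith)
    have se := Real.sq_sqrt (show 0 ≤ E + ε by linarith)
    refine (key (Real.sqrt (E + ε) / Real.sqrt (P + ε)) (by positivity)).trans ?_
    refine mul_le_mul_of_nonneg_left ?_ (by positivity)
    refine add_le_add le_rfl ?_
    have h3 : Real.sqrt (E + ε) / Real.sqrt (P + ε) * P ≤
        Real.sqrt (P + ε) * Real.sqrt (E + ε) := by
      rw [div_mul_eq_mul_div, div_le_iff₀ p0]
      have : Real.sqrt (P + ε) * Real.sqrt (E + ε) * Real.sqrt (P + ε) =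
        Real.sqrt (E + ε) * (P + ε) := by linear_combination (Real.sqrt (E + ε)) * sp
      rw [this]
      exact mul_le_mul_of_nonneg_left (by linarith) e0.le
    have h4 : 1 / (Real.sqrt (E + ε) / Real.sqrt (P + ε)) * E ≤
        Real.sqrt (P + ε) * Real.sqrt (E + ε) := by
      rw [one_div_div, div_mul_eq_mul_div, div_le_iff₀ e0]
      have : Real.sqrt (P + ε) * Real.sqrt (E + ε) * Real.sqrt (E + ε) =
        Real.sqrt (P + ε) * (E + ε) := by linear_combination (Real.sqrt (P + ε)) * se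
      rw [this]
      exact mul_le_mul_of_nonneg_left (by linarith) p0.le
    linarith
  have h5 : Filter.Tendsto (fun ε : ℝ => (n : ℝ) ^ (K + 1) *
      (Y + 2 * Real.sqrt (P + ε) * Real.sqrt (E + ε))) (nhdsWithin 0 (Set.Ioi 0))
      (nhds ((n : ℝ) ^ (K + 1) * (Y + 2 * Real.sqrt (P + 0) * Real.sqrt (E + 0)))) := by
    refine Filter.Tendsto.mono_left ?_ nhdsWithin_le_nhds
    have hc : Continuous fun ε : ℝ => (n : ℝ) ^ (K + 1) *
      (Y + 2 * Real.sqrt (P + ε) * Real.sqrt (E + ε)) := by fun_prop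
    exact hc.tendsto 0
  have h6 := ge_of_tendsto h5 (Filter.eventually_of_mem self_mem_nhdsWithin
    fun ε hε => h2 ε hε)
  simpa using h6

end mat

end Vale.Agent.P146.R2.H757
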