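import Vale.Agent.P146.Bdl.B19
import Vale.Agent.P146.H605.Gauge

/-!
# P146: replica averages with a matrix factor and their pair sums
-/

open MeasureTheory ProbabilityTheory

namespace Vale.Agent.P146.R2.H757

open Vale.Agent.P146 Vale.Agent.P146.H605 Vale.Agent.P146.H605.Gauge

/-- configurations -/
abbrev Cfg (n : ℕ) := Fin n → ℤˣ

variable {n Q K : ℕ} (β : ℝ)

/-- the weight of `Q` replicas -/
noncomputable def rwt (g : Pair n → ℝ) (s : Fin Q → Cfg n) : ℝ := ∏ l, gibbs n β g (s l)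

lemma rwt_nonneg (g : Pair n → ℝ) (s : Fin Q → Cfg n) : 0 ≤ rwt β g s :=
  Finset.prod_nonneg fun _ _ => gibbs_nonneg β g _

lemma sum_pi_prod {X : Type*} [Fintype X] [DecidableEq X] (f : Fin Q → X → ℝ) :
    ∑ s : Fin Q → X, ∏ l, f l (s l) = ∏ l, ∑ x, f l x := by
  rw [Finset.prod_univ_sum, Fintype.piFinset_univ]

lemma rwt_marg (g : Pair n → ℝ) (m0 : Fin Q) (F : Cfg n → ℝ) :
    ∑ s : Fin Q → Cfg n, rwt β g s * F (s m0) = ∑ σ, gibbs n β g σ * F σ := by
  have h1 : ∀ s : Fin Q → Cfg n, rwt β g s * F (s m0) =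
      ∏ l, (gibbs n β g (s l) * (if l = m0 then F (s l) else 1)) := by
    intro s
    rw [Finset.prod_mul_distrib]
    congr 1
    rw [Finset.prod_ite_eq' Finset.univ m0 (fun l => F (s l))]
    simp
  simp_rw [h1]
  rw [sum_pi_prod (fun l σ => gibbs n β g σ * (if l = m0 then F σ else 1)),
    Finset.prod_eq_single m0]
  · simp
  · intro l _ hl
    simp [hl, sum_gibbs]
  · simp

lemma sum_rwt (g : Pair n → ℝ) : ∑ s : Fin Q → Cfg n, rwt β g s = 1 := by
  unfold rwt
  rw [sum_pi_prod (fun _ σ => gibbs n β g σ)]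
  simp [sum_gibbs]

/-- two-sided marginals -/
lemma rwt_marg2 (g g' : Pair n → ℝ) (m0 : Fin Q) (F : Cfg n → Cfg n → ℝ) :
    ∑ s : Fin Q → Cfg n, ∑ s' : Fin Q → Cfg n, rwt β g s * rwt β g' s' * F (s m0) (s' m0) =
      ∑ σ, ∑ τ, F σ τ * gibbs n β g σ * gibbs n β g' τ := by
  have h1 : ∀ s : Fin Q → Cfg n, ∑ s' : Fin Q → Cfg n,
      rwt β g s * rwt β g' s' * F (s m0) (s' m0) =
      rwt β g s * ∑ τ, gibbs n β g' τ * F (s m0) τ := by
    intro s
    rw [← rwt_marg β g' m0 (fun τ => F (s m0) τ), Finset.mul_sum]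
    exact Finset.sum_congr rfl fun s' _ => by ring
  simp_rw [h1]
  rw [rwt_marg β g m0 (fun σ => ∑ τ, gibbs n β g' τ * F σ τ)]
  refine Finset.sum_congr rfl fun σ _ => ?_
  rw [Finset.mul_sum]
  exact Finset.sum_congr rfl fun τ _ => by ring

/-- `∑ i, σ_i τ_i` -/
noncomputable def osum (σ τ : Cfg n) : ℝ := ∑ i, sp σ i * sp τ i

lemma osum_eq (hn : 1 ≤ n) (σ τ : Cfg n) : osum σ τ = n * overlap n σ τ := by
  have hn0 : (n : ℝ) ≠ 0 := by
    have : (0 : ℝ) < n := by exact_mod_cast hn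
    exact this.ne'
  unfold osum overlap
  rw [mul_div_cancel₀ _ hn0]
  rfl

lemma abs_overlap_le (hn : 1 ≤ n) (σ τ : Cfg n) : |overlap n σ τ| ≤ 1 := by
  have hn0 : (0 : ℝ) < n := by exact_mod_cast hn
  have h1 : |osum σ τ| ≤ n := by
    unfold osum
    refine (Finset.abs_sum_le_sum_abs _ _).trans ?_
    simp [abs_mul, abs_sp]
  rw [osum_eq hn, abs_mul, abs_of_pos hn0] at h1
  by_contra h
  push Not at h
  nlinarith

/-- the mean of `|R|^K` for two configurations drawn with two disorders -/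
noncomputable def armom (n : ℕ) (β : ℝ) (K : ℕ) (g g' : Pair n → ℝ) : ℝ :=
  ∑ σ : Cfg n, ∑ τ : Cfg n, |overlap n σ τ| ^ K * gibbs n β g σ * gibbs n β g' τ

lemma armom_nonneg (K : ℕ) (g g' : Pair n → ℝ) : 0 ≤ armom n β K g g' :=
  Finset.sum_nonneg fun σ _ => Finset.sum_nonneg fun τ _ =>
    mul_nonneg (mul_nonneg (pow_nonneg (abs_nonneg _) _) (gibbs_nonneg β g _))
      (gibbs_nonneg β g' _)

lemma armom_le_one (hn : 1 ≤ n) (K : ℕ) (g g' : Pair n → ℝ) : armom n β K g g' ≤ 1 := by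
  have h1 : armom n β K g g' ≤ ∑ σ : Cfg n, ∑ τ : Cfg n, gibbs n β g σ * gibbs n β g' τ := by
    refine Finset.sum_le_sum fun σ _ => Finset.sum_le_sum fun τ _ => ?_
    have h2 : |overlap n σ τ| ^ K ≤ 1 := pow_le_one₀ (abs_nonneg _) (abs_overlap_le hn σ τ)
    have h3 := gibbs_nonneg β g σ
    have h4 := gibbs_nonneg β g' τ
    have h5 : |overlap n σ τ| ^ K * gibbs n β g σ * gibbs n β g' τ =
      |overlap n σ τ| ^ K * (gibbs n β g σ * gibbs n β g' τ) := by ring
    rw [h5]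
    exact mul_le_of_le_one_left (mul_nonneg h3 h4) h2
  refine h1.trans (le_of_eq ?_)
  rw [← Finset.sum_mul_sum, sum_gibbs, sum_gibbs, one_mul]

/-- arithmetic and geometric means -/
lemma prod_le_avg (hK : 1 ≤ K) (x : Fin K → ℝ) (hx : ∀ m, 0 ≤ x m) :
    ∏ m, x m ≤ (1 / (K : ℝ)) * ∑ m, x m ^ K := by
  have hK0 : (0 : ℝ) < K := by exact_mod_cast hK
  have h := Real.geom_mean_le_arith_mean_weighted (Finset.univ : Finset (Fin K))
    (fun _ => 1 / (K : ℝ)) (fun m => x m ^ K) (fun _ _ => by positivity)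
    (by simp [hK0.ne']) (fun m _ => pow_nonneg (hx m) _)
  have e1 : ∏ m, (x m ^ K) ^ (1 / (K : ℝ)) = ∏ m, x m := by
    refine Finset.prod_congr rfl fun m _ => ?_
    rw [← Real.rpow_natCast, ← Real.rpow_mul (hx m), mul_one_div_cancel hK0.ne', Real.rpow_one]
  rw [e1] at h
  rw [Finset.mul_sum]
  exact h

lemma armom_zero (g g' : Pair n → ℝ) : armom n β 0 g g' = 1 := by
  unfold armom
  simp only [pow_zero, one_mul]
  rw [← Finset.sum_mul_sum, sum_gibbs, sum_gibbs, one_mul]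

lemma prod_overlap_le (g g' : Pair n → ℝ) (r : Fin K → Fin Q) :
    ∑ s : Fin Q → Cfg n, ∑ s' : Fin Q → Cfg n, rwt β g s * rwt β g' s' *
      ∏ m, |overlap n (s (r m)) (s' (r m))| ≤ armom n β K g g' := by
  rcases Nat.eq_zero_or_pos K with hK | hK
  · subst hK
    rw [armom_zero]
    simp only [Finset.univ_eq_empty, Finset.prod_empty, mul_one]
    rw [← Finset.sum_mul_sum, sum_rwt, sum_rwt, one_mul]
  have hK0 : (0 : ℝ) < K := by exact_mod_cast hK
  have h1 : ∑ s : Fin Q → Cfg n, ∑ s' : Fin Q → Cfg n, rwt β g s * rwt β g' s' *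
      ∏ m, |overlap n (s (r m)) (s' (r m))| ≤
      ∑ s : Fin Q → Cfg n, ∑ s' : Fin Q → Cfg n, rwt β g s * rwt β g' s' *
      ((1 / (K : ℝ)) * ∑ m, |overlap n (s (r m)) (s' (r m))| ^ K) := by
    refine Finset.sum_le_sum fun s _ => Finset.sum_le_sum fun s' _ => ?_
    exact mul_le_mul_of_nonneg_left (prod_le_avg hK _ fun m => abs_nonneg _)
      (mul_nonneg (rwt_nonneg β g s) (rwt_nonneg β g' s'))
  refine h1.trans (le_of_eq ?_)
  have h2 : ∀ s s' : Fin Q → Cfg n, rwt β g s * rwt β g' s' *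
      ((1 / (K : ℝ)) * ∑ m, |overlap n (s (r m)) (s' (r m))| ^ K) =
      ∑ m, (1 / (K : ℝ)) * (rwt β g s * rwt β g' s' *
        |overlap n (s (r m)) (s' (r m))| ^ K) := by
    intro s s'
    rw [Finset.mul_sum, Finset.mul_sum]
    exact Finset.sum_congr rfl fun m _ => by ring
  simp_rw [h2]
  have h3 : ∀ s : Fin Q → Cfg n, ∑ s' : Fin Q → Cfg n, ∑ m, (1 / (K : ℝ)) *
      (rwt β g s * rwt β g' s' * |overlap n (s (r m)) (s' (r m))| ^ K) =
      ∑ m, ∑ s' : Fin Q → Cfg n, (1 / (K : ℝ)) *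
      (rwt β g s * rwt β g' s' * |overlap n (s (r m)) (s' (r m))| ^ K) :=
    fun s => Finset.sum_comm
  simp_rw [h3]
  rw [Finset.sum_comm]
  have h4 : ∀ m : Fin K, ∑ s : Fin Q → Cfg n, ∑ s' : Fin Q → Cfg n, (1 / (K : ℝ)) *
      (rwt β g s * rwt β g' s' * |overlap n (s (r m)) (s' (r m))| ^ K) =
      (1 / (K : ℝ)) * armom n β K g g' := by
    intro m
    have h5 := rwt_marg2 (Q := Q) β g g' (r m) (fun σ τ => |overlap n σ τ| ^ K)
    unfold armom
    rw [← h5, Finset.mul_sum]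
    refine Finset.sum_congr rfl fun s _ => ?_
    rw [Finset.mul_sum]
  simp_rw [h4]
  rw [Finset.sum_const, Finset.card_univ, Fintype.card_fin, nsmul_eq_mul]
  field_simp

section mat

variable (M : (Pair n → ℝ) → Matrix (Fin n) (Fin n) ℝ) (r0 : Fin Q) (r : Fin K → Fin Q)
  (e : Fin n → (Fin Q → Cfg n) → ℝ)

/-- the replica average with one vector factor and `K` spin factors -/
noncomputable def TT (v : Fin n) (a : Fin K → Fin n) (g : Pair n → ℝ) : ℝ :=
  ∑ s : Fin Q → Cfg n, rwt β g s *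
    ((M g).mulVec (sp (s r0)) v * e v s * ∏ m, sp (s (r m)) (a m))

lemma sum_prod_sp (s s' : Fin Q → Cfg n) :
    ∑ a : Fin K → Fin n, (∏ m, sp (s (r m)) (a m)) * ∏ m, sp (s' (r m)) (a m) =
      ∏ m, osum (s (r m)) (s' (r m)) := by
  simp_rw [← Finset.prod_mul_distrib]
  rw [sum_pi_prod (fun m i => sp (s (r m)) i * sp (s' (r m)) i)]
  rfl

/-- the pair sum -/
lemma pair_sum (g g' : Pair n → ℝ) :
    ∑ v, ∑ a : Fin K → Fin n, TT β M r0 r e v a g * TT β M r0 r e v a g' =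
      ∑ s : Fin Q → Cfg n, ∑ s' : Fin Q → Cfg n, rwt β g s * rwt β g' s' *
        ((∑ v, ((M g).mulVec (sp (s r0)) v * e v s) * ((M g').mulVec (sp (s' r0)) v * e v s')) *
          ∏ m, osum (s (r m)) (s' (r m))) := by
  have h1 : ∀ v (a : Fin K → Fin n), TT β M r0 r e v a g * TT β M r0 r e v a g' =
      ∑ s : Fin Q → Cfg n, ∑ s' : Fin Q → Cfg n, rwt β g s * rwt β g' s' *
        (((M g).mulVec (sp (s r0)) v * e v s) * ((M g').mulVec (sp (s' r0)) v * e v s') *
        ((∏ m, sp (s (r m)) (a m)) * ∏ m, sp (s' (r m)) (a m))) := by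
    intro v a
    unfold TT
    rw [Finset.sum_mul_sum]
    exact Finset.sum_congr rfl fun s _ => Finset.sum_congr rfl fun s' _ => by ring
  simp_rw [h1]
  have h2 : ∀ v, ∑ a : Fin K → Fin n, ∑ s : Fin Q → Cfg n, ∑ s' : Fin Q → Cfg n,
      rwt β g s * rwt β g' s' *
        (((M g).mulVec (sp (s r0)) v * e v s) * ((M g').mulVec (sp (s' r0)) v * e v s') *
        ((∏ m, sp (s (r m)) (a m)) * ∏ m, sp (s' (r m)) (a m))) =
      ∑ s : Fin Q → Cfg n, ∑ s' : Fin Q → Cfg n, rwt β g s * rwt β g' s' *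
        (((M g).mulVec (sp (s r0)) v * e v s) * ((M g').mulVec (sp (s' r0)) v * e v s') *
          ∏ m, osum (s (r m)) (s' (r m))) := by
    intro v
    rw [Finset.sum_comm]
    refine Finset.sum_congr rfl fun s _ => ?_
    rw [Finset.sum_comm]
    refine Finset.sum_congr rfl fun s' _ => ?_
    rw [← sum_prod_sp, Finset.mul_sum, Finset.mul_sum]
  simp_rw [h2]
  rw [Finset.sum_comm]
  refine Finset.sum_congr rfl fun s _ => ?_
  rw [Finset.sum_comm]
  refine Finset.sum_congr rfl fun s' _ => ?_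
  rw [Finset.sum_mul, Finset.mul_sum]

lemma sum_sp_sq (σ : Cfg n) : ∑ i, sp σ i ^ 2 = n := by
  have : ∀ i, sp σ i ^ 2 = 1 := fun i => by rw [sq, sp_sq]
  simp [this]

/-- the bound of the pair sum -/
lemma pair_bound (hn : 1 ≤ n) (he : ∀ v s, |e v s| ≤ 1) (g g' : Pair n → ℝ)
    {N N' : ℝ} (hN0 : 0 ≤ N) (hN0' : 0 ≤ N')
    (hN : ∀ σ : Cfg n, ∑ v, (M g).mulVec (sp σ) v ^ 2 ≤ N ^ 2 * n)
    (hN' : ∀ σ : Cfg n, ∑ v, (M g').mulVec (sp σ) v ^ 2 ≤ N' ^ 2 * n) :
    |∑ v, ∑ a : Fin K → Fin n, TT β M r0 r e v a g * TT β M r0 r e v a g'| ≤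
      (n : ℝ) ^ (K + 1) * (N * N' * armom n β K g g') := by
  have hn0 : (0 : ℝ) < n := by exact_mod_cast hn
  rw [pair_sum]
  have key : ∀ s s' : Fin Q → Cfg n, |rwt β g s * rwt β g' s' *
        ((∑ v, ((M g).mulVec (sp (s r0)) v * e v s) * ((M g').mulVec (sp (s' r0)) v * e v s')) *
          ∏ m, osum (s (r m)) (s' (r m)))| ≤ (n : ℝ) ^ (K + 1) * (N * N') *
        (rwt β g s * rwt β g' s' * ∏ m, |overlap n (s (r m)) (s' (r m))|) := by
    intro s s'
    have w0 := rwt_nonneg β g s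
    have w0' := rwt_nonneg β g' s'
    have h1 : |∏ m, osum (s (r m)) (s' (r m))| =
        (n : ℝ) ^ K * ∏ m, |overlap n (s (r m)) (s' (r m))| := by
      rw [Finset.abs_prod]
      have : ∀ m, |osum (s (r m)) (s' (r m))| = n * |overlap n (s (r m)) (s' (r m))| := by
        intro m
        rw [osum_eq hn, abs_mul, abs_of_pos hn0]
      simp_rw [this]
      rw [Finset.prod_mul_distrib]
      simp
    have h2 : |∑ v, ((M g).mulVec (sp (s r0)) v * e v s) *
        ((M g').mulVec (sp (s' r0)) v * e v s')| ≤ N * N' * n := by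
      have c1 : ∑ v, ((M g).mulVec (sp (s r0)) v * e v s) ^ 2 ≤ N ^ 2 * n := by
        refine le_trans (Finset.sum_le_sum fun v _ => ?_) (hN (s r0))
        rw [mul_pow]
        have : e v s ^ 2 ≤ 1 := by
          rw [← sq_abs]
          exact pow_le_one₀ (abs_nonneg _) (he v s)
        exact mul_le_of_le_one_right (sq_nonneg _) this
      have c2 : ∑ v, ((M g').mulVec (sp (s' r0)) v * e v s') ^ 2 ≤ N' ^ 2 * n := by
        refine le_trans (Finset.sum_le_sum fun v _ => ?_) (hN' (s' r0))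
        rw [mul_pow]
        have : e v s' ^ 2 ≤ 1 := by
          rw [← sq_abs]
          exact pow_le_one₀ (abs_nonneg _) (he v s')
        exact mul_le_of_le_one_right (sq_nonneg _) this
      have cs := Finset.sum_mul_sq_le_sq_mul_sq Finset.univ
        (fun v => (M g).mulVec (sp (s r0)) v * e v s)
        (fun v => (M g').mulVec (sp (s' r0)) v * e v s')
      refine abs_le_of_sq_le_sq ?_ (by positivity)
      refine cs.trans ?_
      calc _ ≤ (N ^ 2 * n) * (N' ^ 2 * n) := mul_le_mul c1 c2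
              (Finset.sum_nonneg fun v _ => sq_nonneg _) (by positivity)
        _ = (N * N' * n) ^ 2 := by ring
    rw [abs_mul, abs_of_nonneg (mul_nonneg w0 w0'), abs_mul, h1]
    have h3 : 0 ≤ ∏ m, |overlap n (s (r m)) (s' (r m))| :=
      Finset.prod_nonneg fun m _ => abs_nonneg _
    calc rwt β g s * rwt β g' s' *
          (|∑ v, ((M g).mulVec (sp (s r0)) v * e v s) *
            ((M g').mulVec (sp (s' r0)) v * e v s')| *
            ((n : ℝ) ^ K * ∏ m, |overlap n (s (r m)) (s' (r m))|))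
        ≤ rwt β g s * rwt β g' s' * (N * N' * n *
            ((n : ℝ) ^ K * ∏ m, |overlap n (s (r m)) (s' (r m))|)) := by
          refine mul_le_mul_of_nonneg_left ?_ (mul_nonneg w0 w0')
          exact mul_le_mul_of_nonneg_right h2 (by positivity)
      _ = _ := by ring
  refine (Finset.abs_sum_le_sum_abs _ _).trans ?_
  refine (Finset.sum_le_sum fun s _ => Finset.abs_sum_le_sum_abs _ _).trans ?_
  refine (Finset.sum_le_sum fun s _ => Finset.sum_le_sum fun s' _ => key s s').trans ?_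
  have h5 : ∑ s : Fin Q → Cfg n, ∑ s' : Fin Q → Cfg n, (n : ℝ) ^ (K + 1) * (N * N') *
        (rwt β g s * rwt β g' s' * ∏ m, |overlap n (s (r m)) (s' (r m))|) =
      (n : ℝ) ^ (K + 1) * (N * N') * ∑ s : Fin Q → Cfg n, ∑ s' : Fin Q → Cfg n,
        (rwt β g s * rwt β g' s' * ∏ m, |overlap n (s (r m)) (s' (r m))|) := by
    rw [Finset.mul_sum]
    exact Finset.sum_congr rfl fun s _ => by rw [Finset.mul_sum]
  rw [h5, mul_assoc]
  refine mul_le_mul_of_nonneg_left ?_ (by positivity)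
  refine mul_le_mul_of_nonneg_left ?_ (by positivity)
  exact prod_overlap_le β g g' r

end mat

end Vale.Agent.P146.R2.H757
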