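import Vale.Agent.P146.R2.H757.Rep
import Vale.Agent.P146.R2.H757.Der
import Vale.Agent.P146.R2.H453.Comb

/-!
# P146: the sums over paths and stars (noise stability of matrix functions of Gibbs averages)
-/

open MeasureTheory ProbabilityTheory

namespace Vale.Agent.P146.R2.H757

open Vale.Agent.P146 Vale.Agent.P146.H605 Vale.Agent.P146.H605.Gauge Vale.Agent.P146.Ub.Cv
  Vale.Agent.P146.H453

section comb

variable {ι X : Type*} [Fintype ι] [Fintype X]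

/-- `QQ` is the square of a seminorm -/
lemma QQ_comb (c : X → ℝ) {T : X → (ι → ℝ) → ℝ} (hT : ∀ x, Dom (T x)) {t : ℝ} (h0 : 0 ≤ t)
    (h1 : t ≤ 1) :
    QQ (fun g => ∑ x, c x * T x g) t ≤ (∑ x, |c x|) * ∑ x, |c x| * QQ (T x) t := by
  have hc : |Real.sqrt t| ≤ 1 := sqrt_abs_le h1
  have hs : |Real.sqrt (1 - t)| ≤ 1 := sqrt_abs_le (by linarith)
  obtain ⟨P, hP⟩ : ∃ P : X → (ι → ℝ) → ℝ, P = fun x z =>
    ∫ y, T x (mix (Real.sqrt t) (Real.sqrt (1 - t)) z y) ∂(gpi ι) := ⟨_, rfl⟩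
  have iP : ∀ x, Integrable (fun z => P x z ^ 2) (gpi ι) := by
    intro x
    have h := (int_pair (hT x) h0 h1).integral_prod_left
    refine h.congr (Filter.Eventually.of_forall fun z => ?_)
    simp only
    rw [integral_prod_mul (fun y => T x (mix (Real.sqrt t) (Real.sqrt (1 - t)) z y))
      (fun y => T x (mix (Real.sqrt t) (Real.sqrt (1 - t)) z y)), hP]
    exact (sq _).symm
  have e1 : ∀ z, ∫ y, (∑ x, c x * T x (mix (Real.sqrt t) (Real.sqrt (1 - t)) z y)) ∂(gpi ι) =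
      ∑ x, c x * P x z := by
    intro z
    rw [int_sum Finset.univ fun x _ => (dom_fix (hT x) hc hs z).const_mul (c x), hP]
    exact Finset.sum_congr rfl fun x _ => integral_const_mul _ _
  have e2 : ∀ x, QQ (T x) t = ∫ z, P x z ^ 2 ∂(gpi ι) := fun x => by rw [hP]; rfl
  unfold QQ at e2 ⊢
  simp_rw [e1, e2]
  have key : ∀ z, (∑ x, c x * P x z) ^ 2 ≤ (∑ x, |c x|) * ∑ x, |c x| * P x z ^ 2 := by
    intro z
    have h2 := Finset.sum_mul_sq_le_sq_mul_sq Finset.univ (fun x => Real.sqrt |c x|)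
      (fun x => Real.sqrt |c x| * |P x z|)
    have h3 : ∀ x, Real.sqrt |c x| * (Real.sqrt |c x| * |P x z|) = |c x * P x z| := by
      intro x
      rw [← mul_assoc, Real.mul_self_sqrt (abs_nonneg _), abs_mul]
    have h4 : ∀ x, Real.sqrt |c x| ^ 2 = |c x| := fun x => Real.sq_sqrt (abs_nonneg _)
    have h5 : ∀ x, (Real.sqrt |c x| * |P x z|) ^ 2 = |c x| * P x z ^ 2 := by
      intro x
      rw [mul_pow, h4, sq_abs]
    simp only [h3, h4, h5] at h2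
    refine le_trans ?_ h2
    rw [← sq_abs]
    exact pow_le_pow_left₀ (abs_nonneg _) (Finset.abs_sum_le_sum_abs _ _) 2
  have iR : Integrable (fun z => (∑ x, |c x|) * ∑ x, |c x| * P x z ^ 2) (gpi ι) :=
    (integrable_finsetSum _ fun x _ => (iP x).const_mul _).const_mul _
  have hm := integral_mono_of_nonneg (μ := gpi ι)
    (Filter.Eventually.of_forall fun z => sq_nonneg (∑ x, c x * P x z)) iR
    (Filter.Eventually.of_forall key)
  refine hm.trans (le_of_eq ?_)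
  rw [integral_const_mul, integral_finsetSum _ fun x _ => (iP x).const_mul _]
  congr 1
  exact Finset.sum_congr rfl fun x _ => integral_const_mul _ _

end comb

variable {n : ℕ} (β : ℝ) (M : (Pair n → ℝ) → Matrix (Fin n) (Fin n) ℝ)

/-- the matrix function applied to `⟨σ_u σ_j⟩` -/
noncomputable def mf (j v : Fin n) (g : Pair n → ℝ) : ℝ :=
  ∑ u, M g v u * avf n β (fun σ => sp σ u * sp σ j) g

/-- the matrix function applied to the third derivatives of `⟨σ_u σ_j⟩` -/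
noncomputable def mh (j : Fin n) (e₁ e₂ e₃ : Pair n) (i : Fin n) (g : Pair n → ℝ) : ℝ :=
  ∑ u, M g i u * g3 β j e₁ e₂ e₃ u g

lemma mf_TT (j v : Fin n) (g : Pair n → ℝ) :
    mf β M j v g = TT β M (0 : Fin 1) (fun _ : Fin 1 => (0 : Fin 1)) (fun _ _ => 1) v
      (fun _ => j) g := by
  unfold TT
  have h := rwt_marg β g (0 : Fin 1) (fun σ => (M g).mulVec (sp σ) v * sp σ j)
  have e1 : ∀ s : Fin 1 → Cfg n, rwt β g s * ((M g).mulVec (sp (s 0)) v * 1 *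
      ∏ _m : Fin 1, sp (s 0) j) = rwt β g s * ((M g).mulVec (sp (s 0)) v * sp (s 0) j) := by
    intro s
    simp
  simp_rw [e1]
  rw [h]
  unfold mf
  simp_rw [avf_gibbs, Finset.mul_sum]
  rw [Finset.sum_comm]
  refine Finset.sum_congr rfl fun σ _ => ?_
  have e2 : (M g).mulVec (sp σ) v = ∑ u, M g v u * sp σ u := rfl
  rw [e2, Finset.sum_mul, Finset.mul_sum]
  exact Finset.sum_congr rfl fun u _ => by ring

lemma mf_TT0 (v : Fin n) (g : Pair n → ℝ) :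
    mf β M v v g = TT β M (0 : Fin 1) (fun m : Fin 0 => m.elim0) (fun v s => sp (s 0) v) v
      (fun m => m.elim0) g := by
  rw [mf_TT]
  unfold TT
  simp

section good

variable (hn : 1 ≤ n) (hM : ∀ i j, Dom fun g => M g i j) {C : ℝ} (hC : 0 ≤ C)
  {B : Set (Pair n → ℝ)} (hBm : MeasurableSet B)
  (hB : ∀ g, g ∉ B → ∀ σ : Cfg n, ∑ v, (M g).mulVec (sp σ) v ^ 2 ≤ C ^ 2 * n)
  {t : ℝ} (h0 : 0 ≤ t) (h1 : t ≤ 1)

/-- the error term -/
noncomputable def errB (B : Set (Pair n → ℝ)) : ℝ :=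
  2 * Real.sqrt ((gpi (Pair n)).real B) * Real.sqrt (∫ g, F2 M g ^ 2 ∂(gpi (Pair n)))

lemma errB_nonneg : 0 ≤ errB M B := by unfold errB; positivity

include hn hM hC hBm hB h0 h1

lemma F2form : ∑ j, ∑ v, QQ (mf β M j v) t ≤
    (n : ℝ) ^ 2 * (C ^ 2 * crossMom n β 1 t + errB M B) := by
  have h := lemG' β M (0 : Fin 1) (fun _ : Fin 1 => (0 : Fin 1)) (fun _ _ => 1) hn
    (fun _ _ => by simp) hM hC hBm hB h0 h1
  refine le_trans (le_of_eq ?_) h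
  rw [Finset.sum_comm]
  refine Finset.sum_congr rfl fun v _ => ?_
  rw [← Equiv.sum_comp (Equiv.funUnique (Fin 1) (Fin n)).symm]
  refine Finset.sum_congr rfl fun j _ => ?_
  congr 1
  funext g
  exact mf_TT β M j v g

lemma F1form : ∑ j, QQ (mf β M j j) t ≤ n * (C ^ 2 + errB M B) := by
  have h := lemG' β M (0 : Fin 1) (fun m : Fin 0 => m.elim0) (fun v s => sp (s 0) v) hn
    (fun v s => (abs_sp _ _).le) hM hC hBm hB h0 h1
  have hz : crossMom n β 0 t = 1 := by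
    rw [crossMom_eq β hn]
    simp [armom_zero]
  rw [hz, zero_add, pow_one, mul_one] at h
  refine le_trans (le_of_eq ?_) h
  refine Finset.sum_congr rfl fun v _ => ?_
  rw [Fintype.sum_unique]
  congr 1
  funext g
  rw [mf_TT0]
  exact congrArg (fun a => TT β M (0 : Fin 1) (fun m : Fin 0 => m.elim0)
    (fun v s => sp (s 0) v) v a g) (funext fun m => m.elim0)

end good

/-- triples of replicas -/
abbrev T3 := Fin 4 × Fin 4 × Fin 4

/-- coefficients of the third derivative -/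
noncomputable def c3 (x : T3) : ℝ := cc 1 x.1 * cc 2 x.2.1 * cc 3 x.2.2

lemma sum_c3 : ∑ x : T3, |c3 x| = 48 := by
  have h1 : ∑ l, |cc 1 l| = 2 := by
    simp [Fin.sum_univ_four, cc]
    norm_num
  have h2 : ∑ l, |cc 2 l| = 4 := by
    simp [Fin.sum_univ_four, cc]
    norm_num
  have h3 : ∑ l, |cc 3 l| = 6 := by
    simp [Fin.sum_univ_four, cc]
    norm_num
  unfold c3
  rw [Fintype.sum_prod_type]
  simp_rw [Fintype.sum_prod_type, abs_mul]
  have h4 : ∀ a b : Fin 4, ∑ l, |cc 1 a| * |cc 2 b| * |cc 3 l| = |cc 1 a| * |cc 2 b| * 6 := by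
    intro a b
    rw [← Finset.mul_sum, h3]
  simp_rw [h4]
  have h5 : ∀ a : Fin 4, ∑ b, |cc 1 a| * |cc 2 b| * 6 = |cc 1 a| * 24 := by
    intro a
    rw [← Finset.sum_mul, ← Finset.mul_sum, h2]
    ring
  simp_rw [h5]
  rw [← Finset.sum_mul, h1]
  norm_num

/-- replica indices of the spin factors -/
def ri (x : T3) : Fin 4 → Fin 4 := ![0, x.1, x.2.1, x.2.2]

/-- the factor of the vertex `v` -/
noncomputable def ep (x : T3) (v : Fin n) (s : Fin 4 → Cfg n) : ℝ :=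
  sp (s x.1) v * sp (s x.2.1) v * sp (s x.2.2) v

lemma abs_ep (x : T3) (v : Fin n) (s : Fin 4 → Cfg n) : |ep x v s| ≤ 1 := by
  unfold ep
  rw [abs_mul, abs_mul, abs_sp, abs_sp, abs_sp]
  norm_num

lemma chi_st {v : Fin n} {e : Pair n} (he : e ∈ st v) (σ : Cfg n) :
    chi (ps e) σ = sp σ v * sp σ (ot v e) := by
  rw [chi_ps]
  rw [mem_st] at he
  unfold ot
  by_cases h : e.1.1 = v
  · rw [if_pos h, h]
  · rw [if_neg h, he.resolve_left h]
    ring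

lemma mh_TT {v : Fin n} {e₁ e₂ e₃ : Pair n} (h₁ : e₁ ∈ st v) (h₂ : e₂ ∈ st v) (h₃ : e₃ ∈ st v)
    (j i : Fin n) (g : Pair n → ℝ) (w : Fin n → T3 → (Fin 4 → Cfg n) → ℝ)
    (hw : ∀ x s, w i x s = ep x v s) :
    mh β M j e₁ e₂ e₃ i g = ∑ x : T3, ((β / Real.sqrt n) ^ 3 * c3 x) *
      TT β M (0 : Fin 4) (ri x) (fun i s => w i x s) i
        ![j, ot v e₁, ot v e₂, ot v e₃] g := by
  have hl : mh β M j e₁ e₂ e₃ i g = ∑ s : Fin 4 → Cfg n, rwt β g s *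
      ((M g).mulVec (sp (s 0)) i * ((β / Real.sqrt n) ^ 3 * (sp (s 0) j *
        ((∑ l, cc 1 l * chi (ps e₁) (s l)) * (∑ l, cc 2 l * chi (ps e₂) (s l)) *
          (∑ l, cc 3 l * chi (ps e₃) (s l)))))) := by
    have hg : ∀ u, M g i u * g3 β j e₁ e₂ e₃ u g = ∑ s : Fin 4 → Cfg n,
        M g i u * ((β / Real.sqrt n) ^ 3 * (rwt β g s * (sp (s 0) u * sp (s 0) j *
          (∑ l, cc 1 l * chi (ps e₁) (s l)) * (∑ l, cc 2 l * chi (ps e₂) (s l)) *
          (∑ l, cc 3 l * chi (ps e₃) (s l))))) := by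
      intro u
      rw [← Finset.mul_sum, ← Finset.mul_sum]
      rfl
    unfold mh
    simp_rw [hg]
    rw [Finset.sum_comm]
    refine Finset.sum_congr rfl fun s _ => ?_
    have e2 : (M g).mulVec (sp (s 0)) i = ∑ u, M g i u * sp (s 0) u := rfl
    rw [e2, Finset.sum_mul, Finset.mul_sum]
    exact Finset.sum_congr rfl fun u _ => by ring
  have hA : ∀ s : Fin 4 → Cfg n, (∑ l, cc 1 l * chi (ps e₁) (s l)) *
      (∑ l, cc 2 l * chi (ps e₂) (s l)) * (∑ l, cc 3 l * chi (ps e₃) (s l)) =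
      ∑ x : T3, c3 x * (ep x v s * (sp (s x.1) (ot v e₁) * sp (s x.2.1) (ot v e₂) *
        sp (s x.2.2) (ot v e₃))) := by
    intro s
    rw [Fintype.sum_prod_type]
    simp_rw [Fintype.sum_prod_type]
    rw [Finset.sum_mul_sum, Finset.sum_mul]
    refine Finset.sum_congr rfl fun a _ => ?_
    rw [Finset.sum_mul]
    refine Finset.sum_congr rfl fun b _ => ?_
    rw [Finset.mul_sum]
    refine Finset.sum_congr rfl fun c _ => ?_
    rw [chi_st h₁, chi_st h₂, chi_st h₃]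
    unfold c3 ep
    ring
  rw [hl]
  simp_rw [hA]
  unfold TT
  simp_rw [Finset.mul_sum]
  rw [Finset.sum_comm]
  refine Finset.sum_congr rfl fun x _ => Finset.sum_congr rfl fun s _ => ?_
  rw [hw]
  have h4 : ∏ m : Fin 4, sp (s (ri x m)) ((![j, ot v e₁, ot v e₂, ot v e₃] : Fin 4 → Fin n) m) =
      sp (s 0) j * sp (s x.1) (ot v e₁) * sp (s x.2.1) (ot v e₂) * sp (s x.2.2) (ot v e₃) := by
    rw [Fin.prod_univ_four]
    rfl
  rw [h4]
  ring

/-- sums over three edges at `v` and one vertex are sums over four vertices -/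
lemma sum_four (v : Fin n) {F : (Fin 4 → Fin n) → ℝ} (hF : ∀ a, 0 ≤ F a) :
    ∑ j, ∑ e₁ ∈ st v, ∑ e₂ ∈ st v, ∑ e₃ ∈ st v, F ![j, ot v e₁, ot v e₂, ot v e₃] ≤
      ∑ a, F a := by
  have h1 : ∑ j, ∑ e₁ ∈ st v, ∑ e₂ ∈ st v, ∑ e₃ ∈ st v, F ![j, ot v e₁, ot v e₂, ot v e₃] =
      ∑ x ∈ (Finset.univ : Finset (Fin n)) ×ˢ (st v ×ˢ (st v ×ˢ st v)),
        F ![x.1, ot v x.2.1, ot v x.2.2.1, ot v x.2.2.2] := by
    rw [Finset.sum_product]
    refine Finset.sum_congr rfl fun j _ => ?_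
    rw [Finset.sum_product]
    refine Finset.sum_congr rfl fun e₁ _ => ?_
    rw [Finset.sum_product]
  rw [h1]
  have hinj : Set.InjOn (fun x : Fin n × Pair n × Pair n × Pair n =>
      (![x.1, ot v x.2.1, ot v x.2.2.1, ot v x.2.2.2] : Fin 4 → Fin n))
      ((Finset.univ : Finset (Fin n)) ×ˢ (st v ×ˢ (st v ×ˢ st v)) :
        Finset (Fin n × Pair n × Pair n × Pair n)) := by
    rintro ⟨j, a, b, c⟩ hx ⟨j', a', b', c'⟩ hx' hxy
    rw [Finset.mem_coe, Finset.mem_product, Finset.mem_product, Finset.mem_product] at hx hx'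
    have k0 := congrFun hxy 0
    have k1 := congrFun hxy 1
    have k2 := congrFun hxy 2
    have k3 := congrFun hxy 3
    have l1 : a = a' := ot_inj hx.2.1 hx'.2.1 k1
    have l2 : b = b' := ot_inj hx.2.2.1 hx'.2.2.1 k2
    have l3 : c = c' := ot_inj hx.2.2.2 hx'.2.2.2 k3
    have l0 : j = j' := k0
    rw [l0, l1, l2, l3]
  rw [← Finset.sum_image (f := F) hinj]
  exact Finset.sum_le_sum_of_subset_of_nonneg (Finset.subset_univ _) fun a _ _ => hF a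

section good2

variable (hn : 1 ≤ n) (hM : ∀ i j, Dom fun g => M g i j) {C : ℝ} (hC : 0 ≤ C)
  {B : Set (Pair n → ℝ)} (hBm : MeasurableSet B)
  (hB : ∀ g, g ∉ B → ∀ σ : Cfg n, ∑ v, (M g).mulVec (sp σ) v ^ 2 ≤ C ^ 2 * n)
  {t : ℝ} (h0 : 0 ≤ t) (h1 : t ≤ 1)

include hn in
lemma kap_pow : ((48 : ℝ) * |β / Real.sqrt n| ^ 3) ^ 2 * (n : ℝ) ^ 5 =
    2304 * β ^ 6 * (n : ℝ) ^ 2 := by
  have hn0 : (0 : ℝ) < n := by exact_mod_cast hn
  have h2 : (|β / Real.sqrt n| ^ 3) ^ 2 = β ^ 6 / (n : ℝ) ^ 3 := by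
    have : (|β / Real.sqrt n| ^ 3) ^ 2 = (|β / Real.sqrt n| ^ 2) ^ 3 := by ring
    rw [this, sq_abs, div_pow, Real.sq_sqrt hn0.le, div_pow]
    ring
  rw [mul_pow, h2]
  field_simp
  ring

include h0 h1 hM in
lemma QQ_mh {v : Fin n} {e₁ e₂ e₃ : Pair n} (h₁ : e₁ ∈ st v) (h₂ : e₂ ∈ st v) (h₃ : e₃ ∈ st v)
    (j i : Fin n) (w : Fin n → T3 → (Fin 4 → Cfg n) → ℝ) (hw : ∀ x s, w i x s = ep x v s) :
    QQ (mh β M j e₁ e₂ e₃ i) t ≤ (48 * |β / Real.sqrt n| ^ 3) *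
      ∑ x : T3, (|β / Real.sqrt n| ^ 3 * |c3 x|) *
        QQ (TT β M (0 : Fin 4) (ri x) (fun i s => w i x s) i
          ![j, ot v e₁, ot v e₂, ot v e₃]) t := by
  have e1 : mh β M j e₁ e₂ e₃ i = fun g => ∑ x : T3, ((β / Real.sqrt n) ^ 3 * c3 x) *
      TT β M (0 : Fin 4) (ri x) (fun i s => w i x s) i
        ![j, ot v e₁, ot v e₂, ot v e₃] g := by
    funext g
    exact mh_TT β M h₁ h₂ h₃ j i g w hw
  rw [e1]
  refine (QQ_comb (fun x : T3 => (β / Real.sqrt n) ^ 3 * c3 x)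
    (fun x => TT_dom β M (0 : Fin 4) (ri x) (fun i s => w i x s) hM i _) h0 h1).trans
    (le_of_eq ?_)
  have e2 : ∀ x : T3, |(β / Real.sqrt n) ^ 3 * c3 x| = |β / Real.sqrt n| ^ 3 * |c3 x| := by
    intro x
    rw [abs_mul, abs_pow]
  simp_rw [e2]
  rw [← Finset.mul_sum, sum_c3]
  ring

include hn hM hC hBm hB h0 h1

lemma F3form : ∑ j, ∑ v, ∑ e₁ ∈ st v, ∑ e₂ ∈ st v, ∑ e₃ ∈ st v,
    QQ (mh β M j e₁ e₂ e₃ v) t ≤
    2304 * β ^ 6 * (n : ℝ) ^ 2 * (C ^ 2 * crossMom n β 4 t + errB M B) := by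
  obtain ⟨k3, hk3⟩ : ∃ k3, k3 = |β / Real.sqrt n| ^ 3 := ⟨_, rfl⟩
  have k0 : 0 ≤ k3 := by rw [hk3]; positivity
  obtain ⟨Bd, hBd⟩ : ∃ Bd, Bd = C ^ 2 * crossMom n β 4 t + errB M B := ⟨_, rfl⟩
  have hG : ∀ x : T3, ∑ v, ∑ a : Fin 4 → Fin n,
      QQ (TT β M (0 : Fin 4) (ri x) (fun i s => ep x i s) v a) t ≤ (n : ℝ) ^ 5 * Bd := by
    intro x
    rw [hBd]
    exact lemG' β M (0 : Fin 4) (ri x) (fun i s => ep x i s) hn (fun v s => abs_ep x v s)
      hM hC hBm hB h0 h1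
  have hv : ∀ v : Fin n, ∑ j, ∑ e₁ ∈ st v, ∑ e₂ ∈ st v, ∑ e₃ ∈ st v,
      QQ (mh β M j e₁ e₂ e₃ v) t ≤ (48 * k3) * ∑ x : T3, (k3 * |c3 x|) *
        ∑ a : Fin 4 → Fin n, QQ (TT β M (0 : Fin 4) (ri x) (fun i s => ep x i s) v a) t := by
    intro v
    obtain ⟨F, hF⟩ : ∃ F : (Fin 4 → Fin n) → ℝ, F = fun a => (48 * k3) *
      ∑ x : T3, (k3 * |c3 x|) *
        QQ (TT β M (0 : Fin 4) (ri x) (fun i s => ep x i s) v a) t := ⟨_, rfl⟩
    have F0 : ∀ a, 0 ≤ F a := by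
      intro a
      rw [hF]
      refine mul_nonneg (by positivity) (Finset.sum_nonneg fun x _ => ?_)
      exact mul_nonneg (mul_nonneg k0 (abs_nonneg _)) (QQ_nonneg _ _)
    have h2 : ∑ j, ∑ e₁ ∈ st v, ∑ e₂ ∈ st v, ∑ e₃ ∈ st v,
        QQ (mh β M j e₁ e₂ e₃ v) t ≤ ∑ j, ∑ e₁ ∈ st v, ∑ e₂ ∈ st v, ∑ e₃ ∈ st v,
        F ![j, ot v e₁, ot v e₂, ot v e₃] := by
      refine Finset.sum_le_sum fun j _ => Finset.sum_le_sum fun e₁ h₁ =>
        Finset.sum_le_sum fun e₂ h₂ => Finset.sum_le_sum fun e₃ h₃ => ?_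
      have h3 := QQ_mh β M hM h0 h1 h₁ h₂ h₃ j v (fun i x s => ep x i s) (fun _ _ => rfl)
      rw [← hk3] at h3
      rw [hF]
      exact h3
    refine h2.trans ((sum_four v F0).trans (le_of_eq ?_))
    rw [hF, ← Finset.mul_sum, Finset.sum_comm]
    congr 1
    exact Finset.sum_congr rfl fun x _ => by rw [Finset.mul_sum]
  rw [Finset.sum_comm]
  refine (Finset.sum_le_sum fun v _ => hv v).trans ?_
  rw [← Finset.mul_sum, Finset.sum_comm]
  have h4 : ∑ x : T3, ∑ v, (k3 * |c3 x|) *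
        ∑ a : Fin 4 → Fin n, QQ (TT β M (0 : Fin 4) (ri x) (fun i s => ep x i s) v a) t ≤
      ∑ x : T3, (k3 * |c3 x|) * ((n : ℝ) ^ 5 * Bd) := by
    refine Finset.sum_le_sum fun x _ => ?_
    rw [← Finset.mul_sum]
    exact mul_le_mul_of_nonneg_left (hG x) (mul_nonneg k0 (abs_nonneg _))
  refine (mul_le_mul_of_nonneg_left h4 (by positivity)).trans (le_of_eq ?_)
  rw [← Finset.sum_mul, ← Finset.mul_sum, sum_c3, ← hBd, ← kap_pow β hn, ← hk3]
  ring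

lemma F4form : ∑ j, ∑ v, ∑ e₁ ∈ st v, ∑ e₂ ∈ st v, ∑ e₃ ∈ st v, ∑ i,
    QQ (mh β M j e₁ e₂ e₃ i) t ≤
    2304 * β ^ 6 * (n : ℝ) ^ 3 * (C ^ 2 * crossMom n β 4 t + errB M B) := by
  obtain ⟨k3, hk3⟩ : ∃ k3, k3 = |β / Real.sqrt n| ^ 3 := ⟨_, rfl⟩
  have k0 : 0 ≤ k3 := by rw [hk3]; positivity
  obtain ⟨Bd, hBd⟩ : ∃ Bd, Bd = C ^ 2 * crossMom n β 4 t + errB M B := ⟨_, rfl⟩
  have hG : ∀ (x : T3) (v : Fin n), ∑ i, ∑ a : Fin 4 → Fin n,
      QQ (TT β M (0 : Fin 4) (ri x) (fun _ s => ep x v s) i a) t ≤ (n : ℝ) ^ 5 * Bd := by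
    intro x v
    rw [hBd]
    exact lemG' β M (0 : Fin 4) (ri x) (fun _ s => ep x v s) hn (fun _ s => abs_ep x v s)
      hM hC hBm hB h0 h1
  have hv : ∀ v : Fin n, ∑ j, ∑ e₁ ∈ st v, ∑ e₂ ∈ st v, ∑ e₃ ∈ st v, ∑ i,
      QQ (mh β M j e₁ e₂ e₃ i) t ≤ (48 * k3) * ∑ x : T3, (k3 * |c3 x|) *
        ∑ i, ∑ a : Fin 4 → Fin n,
          QQ (TT β M (0 : Fin 4) (ri x) (fun _ s => ep x v s) i a) t := by
    intro v
    obtain ⟨F, hF⟩ : ∃ F : (Fin 4 → Fin n) → ℝ, F = fun a => (48 * k3) *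
      ∑ x : T3, (k3 * |c3 x|) *
        ∑ i, QQ (TT β M (0 : Fin 4) (ri x) (fun _ s => ep x v s) i a) t := ⟨_, rfl⟩
    have F0 : ∀ a, 0 ≤ F a := by
      intro a
      rw [hF]
      refine mul_nonneg (by positivity) (Finset.sum_nonneg fun x _ => ?_)
      exact mul_nonneg (mul_nonneg k0 (abs_nonneg _))
        (Finset.sum_nonneg fun i _ => QQ_nonneg _ _)
    have h2 : ∑ j, ∑ e₁ ∈ st v, ∑ e₂ ∈ st v, ∑ e₃ ∈ st v, ∑ i,
        QQ (mh β M j e₁ e₂ e₃ i) t ≤ ∑ j, ∑ e₁ ∈ st v, ∑ e₂ ∈ st v, ∑ e₃ ∈ st v,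
        F ![j, ot v e₁, ot v e₂, ot v e₃] := by
      refine Finset.sum_le_sum fun j _ => Finset.sum_le_sum fun e₁ h₁ =>
        Finset.sum_le_sum fun e₂ h₂ => Finset.sum_le_sum fun e₃ h₃ => ?_
      have h3 : ∀ i, QQ (mh β M j e₁ e₂ e₃ i) t ≤ (48 * k3) *
          ∑ x : T3, (k3 * |c3 x|) *
          QQ (TT β M (0 : Fin 4) (ri x) (fun _ s => ep x v s) i
            ![j, ot v e₁, ot v e₂, ot v e₃]) t := by
        intro i
        have h3 := QQ_mh β M hM h0 h1 h₁ h₂ h₃ j i (fun _ x s => ep x v s) (fun _ _ => rfl)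
        rw [← hk3] at h3
        exact h3
      refine (Finset.sum_le_sum fun i _ => h3 i).trans (le_of_eq ?_)
      rw [← Finset.mul_sum, Finset.sum_comm, hF]
      simp only
      congr 1
      exact Finset.sum_congr rfl fun x _ => by rw [Finset.mul_sum]
    refine h2.trans ((sum_four v F0).trans (le_of_eq ?_))
    rw [hF, ← Finset.mul_sum, Finset.sum_comm]
    congr 1
    refine Finset.sum_congr rfl fun x _ => ?_
    rw [← Finset.mul_sum, Finset.sum_comm]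
  rw [Finset.sum_comm]
  refine (Finset.sum_le_sum fun v _ => hv v).trans ?_
  have h4 : ∀ v : Fin n, (48 * k3) * ∑ x : T3, (k3 * |c3 x|) * ∑ i, ∑ a : Fin 4 → Fin n,
        QQ (TT β M (0 : Fin 4) (ri x) (fun _ s => ep x v s) i a) t ≤
      (48 * k3) * ∑ x : T3, (k3 * |c3 x|) * ((n : ℝ) ^ 5 * Bd) := by
    intro v
    refine mul_le_mul_of_nonneg_left (Finset.sum_le_sum fun x _ => ?_) (by positivity)
    exact mul_le_mul_of_nonneg_left (hG x v) (mul_nonneg k0 (abs_nonneg _))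
  refine (Finset.sum_le_sum fun v _ => h4 v).trans (le_of_eq ?_)
  rw [Finset.sum_const, Finset.card_univ, Fintype.card_fin, nsmul_eq_mul,
    ← Finset.sum_mul, ← Finset.mul_sum, sum_c3, ← hBd]
  have h5 := kap_pow β hn
  rw [← hk3] at h5
  linear_combination ((n : ℝ) * Bd) * h5

end good2

end Vale.Agent.P146.R2.H757
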